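import Vale.Agent.P002.FinalC

/-!
Potential density of integral points on relative `SL_r` character varieties of smooth curves of
genus at least two with arbitrary prescribed local monodromy classes, for every rank `r`: it holds
exactly when the eigenvalues of the prescribed classes are algebraic integers.
-/

namespace Vale.Agent.Results.P002.AlgebraicClasses

open Matrix NumberField

/-- Generators: `inl (i, false)` is `a_i`, `inl (i, true)` is `b_i`, `inr j` is the meridian `γ_j`
around the `j`-th puncture. -/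
abbrev Gen (g n : ℕ) : Type := (Fin g × Bool) ⊕ Fin n

/-- The relator `[a_1,b_1]⋯[a_g,b_g] γ_1⋯γ_n`. -/
def relator (g n : ℕ) : FreeGroup (Gen g n) :=
  (List.ofFn fun i : Fin g => FreeGroup.of (Sum.inl (i, false)) * FreeGroup.of (Sum.inl (i, true)) *
    (FreeGroup.of (Sum.inl (i, false)))⁻¹ * (FreeGroup.of (Sum.inl (i, true)))⁻¹).prod *
  (List.ofFn fun j : Fin n => FreeGroup.of (Sum.inr j)).prod

/-- The fundamental group of a smooth projective curve of genus `g` minus `n` points. -/
abbrev CurveGroup (g n : ℕ) : Type := PresentedGroup {relator g n}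

/-- A representation in `SL_r(A)`, that is, an `A`-point of `Rep_r`. -/
abbrev Rep (g n r : ℕ) (A : Type) [CommRing A] : Type :=
  CurveGroup g n →* SpecialLinearGroup (Fin r) A

/-- The value of a representation at the meridian around the `j`-th puncture. -/
def atMeridian {g n r : ℕ} {A : Type} [CommRing A] (ρ : Rep g n r A) (j : Fin n) :
    SpecialLinearGroup (Fin r) A := ρ (PresentedGroup.of (Sum.inr j))

/-- The coordinates of a representation in `Rep_r ⊂ SL_r^{2g+n}`: the matrix entries of the images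
of the generators. -/
def coords {g n r : ℕ} {A : Type} [CommRing A] (ρ : Rep g n r A) :
    Gen g n × Fin r × Fin r → A :=
  fun k => (ρ (PresentedGroup.of k.1)).1 k.2.1 k.2.2

/-- Simultaneous conjugation of a representation. -/
def conj {g n r : ℕ} {A : Type} [CommRing A] (h : SpecialLinearGroup (Fin r) A)
    (ρ : Rep g n r A) : Rep g n r A := (MulAut.conj h).toMonoidHom.comp ρ

/-- The complex representation given by a representation over `𝓞 L`, for `L ⊂ ℂ`. -/
noncomputable def baseChange {g n r : ℕ} {L : IntermediateField ℚ ℂ} (ρ : Rep g n r (𝓞 L)) : Rep g n r ℂ :=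
  (SpecialLinearGroup.map ((algebraMap L ℂ).comp (algebraMap (𝓞 L) L))).comp ρ

/-- Irreducibility: there is no invariant subspace besides `0` and the whole space. -/
def Irred {g n r : ℕ} (ρ : Rep g n r ℂ) : Prop :=
  ∀ V : Submodule ℂ (Fin r → ℂ), (∀ γ, ∀ v ∈ V, (ρ γ).1.mulVec v ∈ V) → V = ⊥ ∨ V = ⊤

/-- Semisimplicity: every invariant subspace has an invariant complement. -/
def Semisimple {g n r : ℕ} (ρ : Rep g n r ℂ) : Prop :=
  ∀ V : Submodule ℂ (Fin r → ℂ), (∀ γ, ∀ v ∈ V, (ρ γ).1.mulVec v ∈ V) →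
    ∃ W : Submodule ℂ (Fin r → ℂ), (∀ γ, ∀ v ∈ W, (ρ γ).1.mulVec v ∈ W) ∧ IsCompl V W

/-- The integral polynomial `Q` in the matrix entries of the generators defines an `SL_r`-invariant
element of `O(Rep_r)`, that is, a regular function on the scheme `M_r` over `ℤ`. -/
def Invariant (g n r : ℕ) (Q : MvPolynomial (Gen g n × Fin r × Fin r) ℤ) : Prop :=
  ∀ (A : Type) [CommRing A] (h : SpecialLinearGroup (Fin r) A) (ρ : Rep g n r A),
    MvPolynomial.aeval (coords (conj h ρ)) Q = MvPolynomial.aeval (coords ρ) Q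

/-- The complex point of `M_r` given by `ρ` is an `𝓞 L`-integral point. -/
def IntegralPoint {g n r : ℕ} (L : IntermediateField ℚ ℂ) (ρ : Rep g n r ℂ) : Prop :=
  ∀ Q, Invariant g n r Q → ∃ z : 𝓞 L, algebraMap L ℂ z = MvPolynomial.aeval (coords ρ) Q

/-- The local monodromies of `ρ` lie in the conjugacy classes of the matrices `C j`. -/
def HasClasses {g n r : ℕ} (C : Fin n → SpecialLinearGroup (Fin r) ℂ) (ρ : Rep g n r ℂ) : Prop :=
  ∀ j, IsConj (C j) (atMeridian ρ j)

/-- `ρ` represents a point of `Y`: it is semisimple with local monodromies in the classes of the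
`C j`. -/
def InY {g n r : ℕ} (C : Fin n → SpecialLinearGroup (Fin r) ℂ) (ρ : Rep g n r ℂ) : Prop :=
  Semisimple ρ ∧ HasClasses C ρ

/-- `M_r(𝓞 L) ∩ Y` is Zariski dense in `Y`: every regular function on `M_r` over `ℂ` (a
conjugation-invariant polynomial function of representations) which vanishes at the points of
`M_r(𝓞 L) ∩ Y` vanishes on `Y`. -/
def DenseInY (g : ℕ) {n r : ℕ} (C : Fin n → SpecialLinearGroup (Fin r) ℂ)
    (L : IntermediateField ℚ ℂ) : Prop :=
  ∀ P : MvPolynomial (Gen g n × Fin r × Fin r) ℂ,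
    (∀ (h : SpecialLinearGroup (Fin r) ℂ) (ρ : Rep g n r ℂ),
      MvPolynomial.eval (coords (conj h ρ)) P = MvPolynomial.eval (coords ρ) P) →
    (∀ ρ : Rep g n r ℂ, InY C ρ → IntegralPoint L ρ → MvPolynomial.eval (coords ρ) P = 0) →
    ∀ ρ : Rep g n r ℂ, InY C ρ → MvPolynomial.eval (coords ρ) P = 0

/-- The irreducible representations over `𝓞 L` with local monodromies in the classes of the `C j`
are Zariski dense among all complex representations with local monodromies in these classes. -/
def DenseReps (g : ℕ) {n r : ℕ} (C : Fin n → SpecialLinearGroup (Fin r) ℂ)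
    (L : IntermediateField ℚ ℂ) : Prop :=
  ∀ P : MvPolynomial (Gen g n × Fin r × Fin r) ℂ,
    (∀ ρ : Rep g n r (𝓞 L), HasClasses C (baseChange ρ) → Irred (baseChange ρ) →
      MvPolynomial.eval (coords (baseChange ρ)) P = 0) →
    ∀ ρ : Rep g n r ℂ, HasClasses C ρ → MvPolynomial.eval (coords ρ) P = 0

/-- All eigenvalues of the matrices `C j` are algebraic integers. -/
def IntegralEigenvalues {n r : ℕ} (C : Fin n → SpecialLinearGroup (Fin r) ℂ) : Prop :=
  ∀ (j : Fin n) (μ : ℂ), (C j).1.charpoly.IsRoot μ → IsIntegral ℤ μ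

theorem lift_rep {g n r : ℕ} {A : Type} [CommRing A] (σ : Gen g n → SpecialLinearGroup (Fin r) A)
    (hσ : (List.ofFn fun i => σ (.inl (i, false)) * σ (.inl (i, true)) * (σ (.inl (i, false)))⁻¹ *
        (σ (.inl (i, true)))⁻¹).prod * (List.ofFn fun j => σ (.inr j)).prod = 1) :
    ∃ ρ : Rep g n r A, ∀ k, ρ (PresentedGroup.of k) = σ k := by
  have hrel : ∀ x ∈ ({relator g n} : Set (FreeGroup (Gen g n))), FreeGroup.lift σ x = 1 := by
    intro x hx
    rw [Set.mem_singleton_iff.mp hx, relator, map_mul, map_list_prod, map_list_prod,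
      List.map_ofFn, List.map_ofFn, ← hσ]
    congr 3
    · funext i
      simp [Function.comp]
    · funext i
      simp [Function.comp]
  exact ⟨PresentedGroup.toGroup hrel, fun k => PresentedGroup.toGroup.of hrel⟩

theorem rep_rel {g n r : ℕ} {A : Type} [CommRing A] (ρ : Rep g n r A) :
    (List.ofFn fun i => ρ (PresentedGroup.of (.inl (i, false))) *
        ρ (PresentedGroup.of (.inl (i, true))) * (ρ (PresentedGroup.of (.inl (i, false))))⁻¹ *
        (ρ (PresentedGroup.of (.inl (i, true))))⁻¹).prod *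
      (List.ofFn fun j => ρ (PresentedGroup.of (.inr j))).prod = 1 := by
  have h2 : ρ (PresentedGroup.mk {relator g n} (relator g n)) = 1 := by
    have : PresentedGroup.mk {relator g n} (relator g n) = 1 :=
      PresentedGroup.one_of_mem (Set.mem_singleton _)
    rw [this, map_one]
  have h4 : ρ.comp (PresentedGroup.mk {relator g n}) =
      FreeGroup.lift (fun k => ρ (PresentedGroup.of k)) := by
    refine FreeGroup.ext_hom _ _ fun k => ?_
    simp [PresentedGroup.of]
  have h5 : FreeGroup.lift (fun k => ρ (PresentedGroup.of k)) (relator g n) = 1 := by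
    rw [← h4]; exact h2
  refine Eq.trans ?_ h5
  unfold relator
  rw [map_mul, map_list_prod, map_list_prod, List.map_ofFn, List.map_ofFn]
  congr 3
  · funext i
    simp [Function.comp]
  · funext i
    simp [Function.comp]

theorem semisimple_of_irred {g n r : ℕ} {ρ : Rep g n r ℂ} (h : Irred ρ) : Semisimple ρ := by
  intro V hV
  rcases h V hV with rfl | rfl
  · exact ⟨⊤, fun _ _ _ => Submodule.mem_top, isCompl_bot_top⟩
  · exact ⟨⊥, fun γ v hv => by
      rw [(Submodule.mem_bot ℂ).mp hv, Matrix.mulVec_zero]; exact Submodule.zero_mem _,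
      isCompl_top_bot⟩

theorem integral_point {g n r : ℕ} {L : IntermediateField ℚ ℂ} (ρ : Rep g n r (𝓞 L)) :
    IntegralPoint L (baseChange ρ) := by
  intro Q _
  refine ⟨MvPolynomial.aeval (coords ρ) Q, ?_⟩
  have h3 := MvPolynomial.eval₂_comp_left ((algebraMap L ℂ).comp (algebraMap (𝓞 L) L))
    (algebraMap ℤ _) (coords ρ) Q
  rw [MvPolynomial.aeval_def, MvPolynomial.aeval_def]
  refine Eq.trans h3 ?_
  congr 1

theorem exists_dense {g n r : ℕ} (hg : 2 ≤ g) (hr : 0 < r)
    (C : Fin n → SpecialLinearGroup (Fin r) ℂ) (hC : IntegralEigenvalues C) :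
    ∃ L : IntermediateField ℚ ℂ, FiniteDimensional ℚ L ∧ DenseReps g C L := by
  obtain ⟨g, rfl⟩ : ∃ g', g = g' + 2 := ⟨g - 2, by omega⟩
  obtain ⟨L, hL, h⟩ := Vale.Agent.P002.final_general g n r hr C hC
  refine ⟨L, hL, fun P hP ρ hρC => ?_⟩
  refine h P (fun σ hσ hcl hirr => ?_) (fun k => ρ (PresentedGroup.of k)) (rep_rel ρ) hρC
  obtain ⟨ρ', hρ'⟩ := lift_rep σ hσ
  have h1 := hP ρ' (fun j => by simpa [atMeridian, baseChange, hρ'] using hcl j)
    (fun V hV => hirr V (fun k v hv => by
    have := hV (PresentedGroup.of k) v hv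
    simpa [baseChange, hρ'] using this))
  convert h1 using 2
  congr 1
  funext k
  simp [coords, baseChange, hρ']

/-- the coefficients of the characteristic polynomial at a meridian are regular functions on the
scheme `M_r` -/
theorem invariant_coeff (g n r : ℕ) (j : Fin n) (k : ℕ) :
    Invariant g n r (((Matrix.of fun a b => (MvPolynomial.X (Sum.inr j, a, b) :
      MvPolynomial (Gen g n × Fin r × Fin r) ℤ)).charpoly).coeff k) ∧
    ∀ (A : Type) [CommRing A] (ρ : Rep g n r A),
      MvPolynomial.aeval (coords ρ) (((Matrix.of fun a b => (MvPolynomial.X (Sum.inr j, a, b) :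
      MvPolynomial (Gen g n × Fin r × Fin r) ℤ)).charpoly).coeff k) =
      ((atMeridian ρ j).1.charpoly).coeff k := by
  have h : ∀ (A : Type) [CommRing A] (ρ : Rep g n r A),
      MvPolynomial.aeval (coords ρ) (((Matrix.of fun a b => (MvPolynomial.X (Sum.inr j, a, b) :
      MvPolynomial (Gen g n × Fin r × Fin r) ℤ)).charpoly).coeff k) =
      ((atMeridian ρ j).1.charpoly).coeff k := by
    intro A _ ρ
    have h1 : (atMeridian ρ j).1 = (Matrix.of fun a b => (MvPolynomial.X (Sum.inr j, a, b) :
        MvPolynomial (Gen g n × Fin r × Fin r) ℤ)).map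
        (MvPolynomial.aeval (coords ρ) : MvPolynomial (Gen g n × Fin r × Fin r) ℤ →ₐ[ℤ] A) := by
      ext a b
      simp [coords, atMeridian]
    rw [h1]
    have h2 := Matrix.charpoly_map (Matrix.of fun a b => (MvPolynomial.X (Sum.inr j, a, b) :
        MvPolynomial (Gen g n × Fin r × Fin r) ℤ))
        (MvPolynomial.aeval (coords ρ) : MvPolynomial (Gen g n × Fin r × Fin r) ℤ →ₐ[ℤ] A).toRingHom
    have h3 := congrArg (fun p => Polynomial.coeff p k) h2
    simp only [Polynomial.coeff_map] at h3
    exact h3.symm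
  refine ⟨fun A _ c ρ => ?_, h⟩
  rw [h, h]
  have : atMeridian (conj c ρ) j = c * atMeridian ρ j * c⁻¹ := rfl
  rw [this, Vale.Agent.P002.sl_charpoly_conj]

/-- Let `g ≥ 2`, `n ≥ 0`, `r ≥ 1` and let `C_1, …, C_n` be arbitrary matrices in `SL_r(ℂ)`.
(1) Some number field `L ⊂ ℂ` makes `M_r(𝓞 L) ∩ Y` Zariski dense in `Y` if and only if all
eigenvalues of the `C_j` are algebraic integers (for instance roots of unity).
(2) In this case, moreover, `L` can be chosen such that the irreducible representations over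
`𝓞 L` with local monodromies in the classes of the `C_j` are Zariski dense among all complex
representations with local monodromies in these classes.
(3) `Y` is never empty, and it contains an irreducible representation. -/
theorem result (g n r : ℕ) (hg : 2 ≤ g) (hr : 0 < r) (C : Fin n → SpecialLinearGroup (Fin r) ℂ) :
    ((∃ L : IntermediateField ℚ ℂ, FiniteDimensional ℚ L ∧ DenseInY g C L) ↔
      IntegralEigenvalues C) ∧
    (IntegralEigenvalues C →
      ∃ L : IntermediateField ℚ ℂ, FiniteDimensional ℚ L ∧ DenseInY g C L ∧ DenseReps g C L) ∧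
    (∃ ρ : Rep g n r ℂ, Irred ρ ∧ InY C ρ) := by
  have key : IntegralEigenvalues C →
      ∃ L : IntermediateField ℚ ℂ, FiniteDimensional ℚ L ∧ DenseInY g C L ∧ DenseReps g C L := by
    intro hC
    obtain ⟨L, hL, h⟩ := exists_dense hg hr C hC
    exact ⟨L, hL, fun P _ hP ρ hρ => h P (fun ρ' hcl hirr =>
      hP _ ⟨semisimple_of_irred hirr, hcl⟩ (integral_point ρ')) ρ hρ.2, h⟩
  have hex : ∃ ρ : Rep g n r ℂ, Irred ρ ∧ InY C ρ := by
    obtain ⟨g, rfl⟩ : ∃ g', g = g' + 2 := ⟨g - 2, by omega⟩
    obtain ⟨σ, h1, h2, h3⟩ := Vale.Agent.P002.exists_rep g n r hr C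
    obtain ⟨ρ, hρ⟩ := lift_rep σ h1
    have hirr : Irred ρ := fun V hV => h3 V fun k v hv => by
      have := hV (PresentedGroup.of k) v hv
      rwa [hρ] at this
    refine ⟨ρ, hirr, semisimple_of_irred hirr, fun j => ?_⟩
    have := h2 j
    rwa [atMeridian, hρ]
  refine ⟨⟨?_, fun h => ?_⟩, key, hex⟩
  · rintro ⟨L, -, hD⟩ j μ hμ
    obtain ⟨ρ₀, -, hρ₀⟩ := hex
    obtain ⟨ρ, hρY, hρI⟩ : ∃ ρ : Rep g n r ℂ, InY C ρ ∧ IntegralPoint L ρ := by
      by_contra hcon
      push Not at hcon
      have := hD 1 (fun _ _ => by simp) (fun ρ h1 h2 => absurd h2 (hcon ρ h1)) ρ₀ hρ₀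
      simp at this
    refine Vale.Agent.P002.root_integral (Matrix.charpoly_monic (C j).1) (fun k => ?_) hμ
    rw [← Vale.Agent.P002.charpoly_of_isConj (hρY.2 j)]
    obtain ⟨z, hz⟩ := hρI _ (invariant_coeff g n r j k).1
    rw [(invariant_coeff g n r j k).2] at hz
    rw [← hz]
    exact (z.isIntegral_coe).algebraMap
  · obtain ⟨L, hL, h1, -⟩ := key h
    exact ⟨L, hL, h1⟩

end Vale.Agent.Results.P002.AlgebraicClasses
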