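import Vale.Agent.P002.ZFinal2

/-!
Density of the integral points over `ℤ` (no field extension at all) on the `SL_r` character
varieties, for every rank `r`, of all smooth projective curves and of all abelian varieties.
-/

namespace Vale.Agent.Results.P002.IntegerPoints

open Matrix

section definitions
variable {π ι : Type} [Group π]

/-- A representation of the group `π` in `SL_r(A)`, that is, an `A`-point of `Rep_r`. -/
abbrev Rep (π : Type) [Group π] (r : ℕ) (A : Type) [CommRing A] : Type :=
  π →* SpecialLinearGroup (Fin r) A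

/-- The coordinates of a representation in `Rep_r ⊂ SL_r^ι` with respect to the family of
generators `s`: the matrix entries of the images of the generators. -/
def coords (s : ι → π) {r : ℕ} {A : Type} [CommRing A] (ρ : Rep π r A) :
    ι × Fin r × Fin r → A :=
  fun k => (ρ (s k.1)).1 k.2.1 k.2.2

/-- Simultaneous conjugation of a representation. -/
def conj {r : ℕ} {A : Type} [CommRing A] (h : SpecialLinearGroup (Fin r) A) (ρ : Rep π r A) :
    Rep π r A := (MulAut.conj h).toMonoidHom.comp ρ

/-- The complex representation given by a representation over `ℤ`. -/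
def baseChange {r : ℕ} (ρ : Rep π r ℤ) : Rep π r ℂ :=
  (SpecialLinearGroup.map (Int.castRingHom ℂ)).comp ρ

/-- Irreducibility: there is no invariant subspace besides `0` and the whole space. -/
def Irred {r : ℕ} (ρ : Rep π r ℂ) : Prop :=
  ∀ V : Submodule ℂ (Fin r → ℂ), (∀ γ, ∀ v ∈ V, (ρ γ).1.mulVec v ∈ V) → V = ⊥ ∨ V = ⊤

/-- Semisimplicity: every invariant subspace has an invariant complement. -/
def Semisimple {r : ℕ} (ρ : Rep π r ℂ) : Prop :=
  ∀ V : Submodule ℂ (Fin r → ℂ), (∀ γ, ∀ v ∈ V, (ρ γ).1.mulVec v ∈ V) →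
    ∃ W : Submodule ℂ (Fin r → ℂ), (∀ γ, ∀ v ∈ W, (ρ γ).1.mulVec v ∈ W) ∧ IsCompl V W

/-- The integral polynomial `Q` in the matrix entries of the generators defines an `SL_r`-invariant
element of `O(Rep_r)`, that is, a regular function on the scheme `M_r` over `ℤ`. -/
def Invariant (s : ι → π) (r : ℕ) (Q : MvPolynomial (ι × Fin r × Fin r) ℤ) : Prop :=
  ∀ (A : Type) [CommRing A] (h : SpecialLinearGroup (Fin r) A) (ρ : Rep π r A),
    MvPolynomial.aeval (coords s (conj h ρ)) Q = MvPolynomial.aeval (coords s ρ) Q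

/-- The complex point of `M_r` given by `ρ` is a `ℤ`-integral point. -/
def IntegralPoint (s : ι → π) {r : ℕ} (ρ : Rep π r ℂ) : Prop :=
  ∀ Q, Invariant s r Q → ∃ z : ℤ, (z : ℂ) = MvPolynomial.aeval (coords s ρ) Q

/-- `M_r(ℤ)` is Zariski dense in `M_r(ℂ)`: every regular function on `M_r` over `ℂ` (a
conjugation-invariant polynomial function of representations) which vanishes at the points of
`M_r(ℤ)` vanishes on `M_r(ℂ)`. The complex points of `M_r` are represented by semisimple
representations. -/
def IntegerPointsDense (s : ι → π) (r : ℕ) : Prop :=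
  ∀ P : MvPolynomial (ι × Fin r × Fin r) ℂ,
    (∀ (h : SpecialLinearGroup (Fin r) ℂ) (ρ : Rep π r ℂ),
      MvPolynomial.eval (coords s (conj h ρ)) P = MvPolynomial.eval (coords s ρ) P) →
    (∀ ρ : Rep π r ℂ, Semisimple ρ → IntegralPoint s ρ → MvPolynomial.eval (coords s ρ) P = 0) →
    ∀ ρ : Rep π r ℂ, Semisimple ρ → MvPolynomial.eval (coords s ρ) P = 0

end definitions

/-- The relator `[a_1,b_1]⋯[a_g,b_g]`; the generator `(i, false)` is `a_i` and `(i, true)` is
`b_i`. -/
def relator (g : ℕ) : FreeGroup (Fin g × Bool) :=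
  (List.ofFn fun i : Fin g => FreeGroup.of (i, false) * FreeGroup.of (i, true) *
    (FreeGroup.of (i, false))⁻¹ * (FreeGroup.of (i, true))⁻¹).prod

/-- The fundamental group of a smooth projective curve of genus `g`. -/
abbrev SurfaceGroup (g : ℕ) : Type := PresentedGroup {relator g}

/-- The standard generators `a_i`, `b_i` of the surface group. -/
def surfaceGen (g : ℕ) : Fin g × Bool → SurfaceGroup g := PresentedGroup.of

/-- The group `ℤ^k`, written multiplicatively: for `k = 2d` the fundamental group of an abelian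
variety of dimension `d`. -/
abbrev LatticeGroup (k : ℕ) : Type := Fin k → Multiplicative ℤ

/-- The standard basis of `ℤ^k`. -/
def latticeGen (k : ℕ) : Fin k → LatticeGroup k :=
  fun i => Pi.mulSingle i (Multiplicative.ofAdd 1)

theorem semisimple_of_irred {π : Type} [Group π] {r : ℕ} {ρ : Rep π r ℂ} (h : Irred ρ) :
    Semisimple ρ := by
  intro V hV
  rcases h V hV with rfl | rfl
  · exact ⟨⊤, fun _ _ _ => Submodule.mem_top, isCompl_bot_top⟩
  · exact ⟨⊥, fun γ v hv => by
      rw [(Submodule.mem_bot ℂ).mp hv, Matrix.mulVec_zero]; exact Submodule.zero_mem _,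
      isCompl_top_bot⟩

theorem integral_point {π ι : Type} [Group π] (s : ι → π) {r : ℕ} (ρ : Rep π r ℤ) :
    IntegralPoint s (baseChange ρ) := by
  intro Q _
  refine ⟨MvPolynomial.aeval (coords s ρ) Q, ?_⟩
  have h3 := MvPolynomial.eval₂_comp_left (Int.castRingHom ℂ) (algebraMap ℤ _) (coords s ρ) Q
  rw [MvPolynomial.aeval_def, MvPolynomial.aeval_def]
  refine Eq.trans h3 ?_
  congr 1

theorem dense_reps (g r : ℕ) (hg : 2 ≤ g) (hr : 0 < r)
    (P : MvPolynomial ((Fin g × Bool) × Fin r × Fin r) ℂ)
    (hP : ∀ ρ : Rep (SurfaceGroup g) r ℤ, Irred (baseChange ρ) →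
      MvPolynomial.eval (coords (surfaceGen g) (baseChange ρ)) P = 0)
    (ρ : Rep (SurfaceGroup g) r ℂ) : MvPolynomial.eval (coords (surfaceGen g) ρ) P = 0 := by
  obtain ⟨g, rfl⟩ : ∃ g', g = g' + 2 := ⟨g - 2, by omega⟩
  refine Vale.Agent.P002.final_int g r hr P (fun σ hσ hirr => ?_)
    (fun k => ρ (PresentedGroup.of k)) ?_
  · have hrel : ∀ x ∈ ({relator (g + 2)} : Set (FreeGroup (Fin (g + 2) × Bool))),
        FreeGroup.lift σ x = 1 := by
      intro x hx
      rw [Set.mem_singleton_iff.mp hx, relator, map_list_prod, List.map_ofFn, ← hσ]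
      congr 2
      funext i
      simp [Function.comp]
    have h1 := hP (PresentedGroup.toGroup hrel) (fun V hV => hirr V (fun k v hv => by
      have := hV (PresentedGroup.of k) v hv
      simpa [baseChange, PresentedGroup.toGroup.of] using this))
    convert h1 using 2
    congr 1
    funext k
    simp [coords, baseChange, surfaceGen, PresentedGroup.toGroup.of]
  · have h2 : ρ (PresentedGroup.mk {relator (g + 2)} (relator (g + 2))) = 1 := by
      have : PresentedGroup.mk {relator (g + 2)} (relator (g + 2)) = 1 :=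
        PresentedGroup.one_of_mem (Set.mem_singleton _)
      rw [this, map_one]
    have h4 : ρ.comp (PresentedGroup.mk {relator (g + 2)}) =
        FreeGroup.lift (fun k => ρ (PresentedGroup.of k)) := by
      refine FreeGroup.ext_hom _ _ fun k => ?_
      simp [PresentedGroup.of]
    have h5 : FreeGroup.lift (fun k => ρ (PresentedGroup.of k)) (relator (g + 2)) = 1 := by
      rw [← h4]; exact h2
    refine Eq.trans ?_ h5
    unfold relator
    rw [map_list_prod, List.map_ofFn]
    congr 2
    funext i
    simp [Function.comp]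

/-- density for groups generated by a commuting family whose integral commuting tuples all extend
to representations -/
theorem dense_comm {π : Type} [Group π] {k r : ℕ} (s : Fin k → π)
    (hs : ∀ (A : Type) [CommRing A] (σ : Fin k → SpecialLinearGroup (Fin r) A),
      (∀ i j, Commute (σ i) (σ j)) → ∃ ρ : Rep π r A, ∀ i, ρ (s i) = σ i)
    (hc : ∀ i j, Commute (s i) (s j)) (hgen : Subgroup.closure (Set.range s) = ⊤) :
    IntegerPointsDense s r := by
  have hinvt : ∀ (V : Submodule ℂ (Fin r → ℂ)) (ρ : Rep π r ℂ),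
      (∀ i, ∀ v ∈ V, (ρ (s i)).1.mulVec v ∈ V) → ∀ γ, ∀ v ∈ V, (ρ γ).1.mulVec v ∈ V := by
    intro V ρ hV γ
    -- the set of elements preserving `V` is a subgroup
    have hfin : ∀ M : Matrix (Fin r) (Fin r) ℂ, IsUnit M.det → (∀ v ∈ V, M.mulVec v ∈ V) →
        ∀ v ∈ V, (M⁻¹).mulVec v ∈ V := by
      intro M hM hMV v hv
      set f : V →ₗ[ℂ] V := M.mulVecLin.restrict (p := V) (q := V)
        (fun v hv => by rw [Matrix.mulVecLin_apply]; exact hMV v hv) with hf
      have hfv : ∀ u : V, ((f u : V) : Fin r → ℂ) = M.mulVec u := fun u => rfl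
      have hinj : Function.Injective f := by
        intro x y hxy
        apply Subtype.ext
        have h1 := congrArg Subtype.val hxy
        rw [hfv, hfv] at h1
        have h2 := congrArg (fun u => (M⁻¹).mulVec u) h1
        simpa [Matrix.mulVec_mulVec, Matrix.nonsing_inv_mul _ hM] using h2
      obtain ⟨u, hu⟩ := (LinearMap.injective_iff_surjective.mp hinj) ⟨v, hv⟩
      have h1 := congrArg Subtype.val hu
      rw [hfv] at h1
      have h2 : v = M.mulVec u := h1.symm
      rw [h2, Matrix.mulVec_mulVec, Matrix.nonsing_inv_mul _ hM, Matrix.one_mulVec]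
      exact u.2
    have hmem : γ ∈ Subgroup.closure (Set.range s) := by rw [hgen]; trivial
    induction hmem using Subgroup.closure_induction with
    | mem x hx =>
      obtain ⟨i, rfl⟩ := hx
      exact hV i
    | one => intro v hv; simpa using hv
    | mul x y _ _ hx hy =>
      intro v hv
      rw [map_mul, Matrix.SpecialLinearGroup.coe_mul, ← Matrix.mulVec_mulVec]
      exact hx _ (hy v hv)
    | inv x _ hx =>
      rw [map_inv, Vale.Agent.P002.sl_coe_inv]
      exact hfin _ (by rw [(ρ x).2]; exact isUnit_one) hx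
  intro P hPinv hP ρ hρ
  have hss : ∃ h0 : Matrix (Fin r) (Fin r) ℂ, IsUnit h0.det ∧ ∃ ν : Fin k → Fin r → ℂ,
      ∀ i, (ρ (s i)).1 = h0 * diagonal (ν i) * h0⁻¹ := by
    refine Vale.Agent.P002.simul_diag (fun i => (ρ (s i)).1) (fun i j => ?_) fun V hV => ?_
    · have := (hc i j).map ρ
      exact congrArg Subtype.val this.eq
    · obtain ⟨W, hW, hVW⟩ := hρ V (hinvt V ρ hV)
      exact ⟨W, fun i => hW (s i), hVW⟩
  refine Vale.Agent.P002.final_torus k r P ?_ ?_ (fun i => (ρ (s i)).1) (fun i => (ρ (s i)).2) hss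
  · -- invariance
    intro h hh ν hν
    set σ : Fin k → SpecialLinearGroup (Fin r) ℂ := fun i =>
      ⟨diagonal (ν i), by rw [Matrix.det_diagonal, hν]⟩ with hσ
    obtain ⟨ρ', hρ'⟩ := hs ℂ σ (fun i j => Subtype.ext (by
      show diagonal (ν i) * diagonal (ν j) = diagonal (ν j) * diagonal (ν i)
      rw [Matrix.diagonal_mul_diagonal, Matrix.diagonal_mul_diagonal]
      congr 1
      funext x
      exact mul_comm _ _))
    rcases Nat.eq_zero_or_pos r with hr | hr
    · subst hr
      congr 1
      congr 1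
      funext p
      exact p.2.1.elim0
    · obtain ⟨c, hc1⟩ := IsAlgClosed.exists_pow_nat_eq (h.det)⁻¹ hr
      have hc0 : c ≠ 0 := by
        rintro rfl
        rw [zero_pow hr.ne'] at hc1
        exact inv_ne_zero hh.ne_zero hc1.symm
      have hdet : (c • h).det = 1 := by
        rw [Matrix.det_smul, Fintype.card_fin, hc1, inv_mul_cancel₀ hh.ne_zero]
      set H : SpecialLinearGroup (Fin r) ℂ := ⟨c • h, hdet⟩ with hH
      have h1 := hPinv H ρ'
      have e1 : coords s ρ' = fun p : Fin k × Fin r × Fin r =>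
          (diagonal (ν p.1) : Matrix (Fin r) (Fin r) ℂ) p.2.1 p.2.2 := by
        funext p
        simp [coords, hρ', hσ]
      have e2 : coords s (conj H ρ') = fun p : Fin k × Fin r × Fin r =>
          (h * diagonal (ν p.1) * h⁻¹) p.2.1 p.2.2 := by
        funext p
        have h2 : (conj H ρ' (s p.1)).1 = (c • h) * diagonal (ν p.1) * (c • h)⁻¹ := by
          show (H * ρ' (s p.1) * H⁻¹).1 = _
          rw [Matrix.SpecialLinearGroup.coe_mul, Matrix.SpecialLinearGroup.coe_mul,
            Vale.Agent.P002.sl_coe_inv, hρ']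
        have h3 : (c • h)⁻¹ = c⁻¹ • h⁻¹ := by
          apply Matrix.inv_eq_right_inv
          rw [Algebra.smul_mul_assoc, Algebra.mul_smul_comm, smul_smul, mul_inv_cancel₀ hc0,
            one_smul, Matrix.mul_nonsing_inv _ hh]
        simp only [coords]
        rw [h2, h3, Algebra.smul_mul_assoc, Algebra.smul_mul_assoc, Algebra.mul_smul_comm,
          smul_smul, mul_inv_cancel₀ hc0, one_smul]
      rw [e1, e2] at h1
      exact h1
  · intro A hA hdA
    obtain ⟨ρ', hρ'⟩ := hs ℤ A hA
    have h1 := hP (baseChange ρ') ?_ (integral_point s ρ')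
    · convert h1 using 2
      congr 1
      funext p
      simp [coords, baseChange, hρ']
    · intro V hV
      obtain ⟨h0, hh0, ν, hν⟩ := hdA
      obtain ⟨W, hW, hVW⟩ := Vale.Agent.P002.diag_complement
        (fun i : Fin k => (baseChange ρ' (s i)).1) h0 hh0 ν (fun i => by
          rw [← hν i]
          ext a b
          simp [baseChange, hρ']) V fun i => hV (s i)
      exact ⟨W, hinvt W _ hW, hVW⟩

theorem surface_zero (r : ℕ) : IntegerPointsDense (surfaceGen 0) r := by
  intro P _ hP ρ hρ
  have h1 : ∀ ρ' : Rep (SurfaceGroup 0) r ℂ, coords (surfaceGen 0) ρ' =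
      coords (surfaceGen 0) ρ := fun ρ' => by
    funext p
    exact p.1.1.elim0
  have h2 : ρ = baseChange (1 : Rep (SurfaceGroup 0) r ℤ) :=
    PresentedGroup.ext fun k => k.1.elim0
  exact hP ρ hρ (by rw [h2]; exact integral_point _ _)

theorem dense_reindex {π ι κ : Type} [Group π] (s : ι → π) (e : κ ≃ ι) (r : ℕ)
    (h : IntegerPointsDense (fun k => s (e k)) r) : IntegerPointsDense s r := by
  have hco : ∀ (A : Type) [CommRing A] (ρ : Rep π r A) (p : ι × Fin r × Fin r),
      coords (fun k => s (e k)) ρ (e.symm p.1, p.2) = coords s ρ p := by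
    intro A _ ρ p
    simp [coords]
  have hco' : ∀ (A : Type) [CommRing A] (ρ : Rep π r A) (p : κ × Fin r × Fin r),
      coords s ρ (e p.1, p.2) = coords (fun k => s (e k)) ρ p := by
    intro A _ ρ p
    simp [coords]
  intro P hPinv hP ρ hρ
  have he : ∀ ρ : Rep π r ℂ, MvPolynomial.eval (coords (fun k => s (e k)) ρ)
      (MvPolynomial.rename (fun p : ι × Fin r × Fin r => (e.symm p.1, p.2)) P) =
      MvPolynomial.eval (coords s ρ) P := fun ρ => by
    rw [MvPolynomial.eval_rename]
    congr 1
    congr 1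
    funext p
    exact hco ℂ ρ p
  rw [← he]
  refine h _ (fun h ρ => by rw [he, he, hPinv]) (fun ρ hss hint => ?_) ρ hρ
  rw [he]
  refine hP ρ hss fun Q hQ => ?_
  have ha : ∀ (A : Type) [CommRing A] (ρ : Rep π r A),
      MvPolynomial.aeval (coords (fun k => s (e k)) ρ)
        (MvPolynomial.rename (fun p : ι × Fin r × Fin r => (e.symm p.1, p.2)) Q) =
      MvPolynomial.aeval (coords s ρ) Q := fun A _ ρ => by
    rw [MvPolynomial.aeval_rename]
    congr 1
    congr 1
    funext p
    exact hco A ρ p
  obtain ⟨z, hz⟩ := hint (MvPolynomial.rename (fun p : ι × Fin r × Fin r => (e.symm p.1, p.2)) Q)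
    (fun A _ h ρ => by rw [ha, ha]; exact hQ A h ρ)
  exact ⟨z, by rw [hz, ha]⟩

theorem surface_one (r : ℕ) : IntegerPointsDense (surfaceGen 1) r := by
  set e : Fin 2 ≃ Fin 1 × Bool := finTwoEquiv.trans (Equiv.uniqueProd Bool (Fin 1)).symm with he
  refine dense_reindex _ e r ?_
  have h2 : relator 1 = FreeGroup.of (0, false) * FreeGroup.of (0, true) *
    (FreeGroup.of (0, false))⁻¹ * (FreeGroup.of (0, true))⁻¹ := by
    simp [relator]
  have hrel : (surfaceGen 1 (0, false)) * surfaceGen 1 (0, true) *
      (surfaceGen 1 (0, false))⁻¹ * (surfaceGen 1 (0, true))⁻¹ = 1 := by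
    have h1 : PresentedGroup.mk {relator 1} (FreeGroup.of (0, false) * FreeGroup.of (0, true) *
      (FreeGroup.of (0, false))⁻¹ * (FreeGroup.of (0, true))⁻¹) = 1 := by
      rw [← h2]
      exact PresentedGroup.one_of_mem (Set.mem_singleton _)
    rw [map_mul, map_mul, map_mul, map_inv, map_inv] at h1
    exact h1
  have hcomm : Commute (surfaceGen 1 (0, false)) (surfaceGen 1 (0, true)) := by
    have h1 := mul_inv_eq_one.mp hrel
    exact mul_inv_eq_iff_eq_mul.mp h1
  have hcases : ∀ k : Fin 1 × Bool, k = (0, false) ∨ k = (0, true) := by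
    rintro ⟨i, b⟩
    rw [Subsingleton.elim i 0]
    cases b <;> simp
  refine dense_comm _ (fun A _ σ hσ => ?_) (fun i j => ?_) ?_
  · set τ : Fin 1 × Bool → SpecialLinearGroup (Fin r) A := fun k => σ (e.symm k) with hτ
    have hr : ∀ x ∈ ({relator 1} : Set (FreeGroup (Fin 1 × Bool))), FreeGroup.lift τ x = 1 := by
      intro x hx
      rw [Set.mem_singleton_iff.mp hx]
      simp only [relator, List.ofFn_succ, List.ofFn_zero, List.prod_cons, List.prod_nil, mul_one,
        map_mul, map_inv, FreeGroup.lift_apply_of]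
      have h1 := (hσ (e.symm (0, false)) (e.symm (0, true))).eq
      rw [show τ (0, false) * τ (0, true) = τ (0, true) * τ (0, false) from h1]
      group
    exact ⟨PresentedGroup.toGroup hr, fun i => by
      simp [surfaceGen, PresentedGroup.toGroup.of, hτ]⟩
  · rcases hcases (e i) with h1 | h1 <;> rcases hcases (e j) with h2 | h2 <;> rw [h1, h2]
    · exact hcomm
    · exact hcomm.symm
  · have h1 : Set.range (fun k => surfaceGen 1 (e k)) = Set.range (PresentedGroup.of :
        Fin 1 × Bool → SurfaceGroup 1) := by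
      ext x
      constructor
      · rintro ⟨k, rfl⟩
        exact ⟨e k, rfl⟩
      · rintro ⟨k, rfl⟩
        exact ⟨e.symm k, by simp [surfaceGen]⟩
    rw [h1]
    exact PresentedGroup.closure_range_of _

theorem exists_hom_lattice {G : Type} [Group G] {k : ℕ} (σ : Fin k → G)
    (hσ : ∀ i j, Commute (σ i) (σ j)) : ∃ f : LatticeGroup k →* G, ∀ i, f (latticeGen k i) = σ i := by
  have hc : Pairwise fun i j => ∀ x y : Multiplicative ℤ,
      Commute (zpowersHom G (σ i) x) (zpowersHom G (σ j) y) := fun i j _ x y => by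
    rw [zpowersHom_apply, zpowersHom_apply]
    exact (hσ i j).zpow_zpow _ _
  refine ⟨MonoidHom.noncommPiCoprod (fun i => zpowersHom G (σ i)) hc, fun i => ?_⟩
  unfold latticeGen
  rw [MonoidHom.noncommPiCoprod_mulSingle]
  simp

theorem lattice (k r : ℕ) : IntegerPointsDense (latticeGen k) r := by
  refine dense_comm _ (fun A _ σ hσ => ?_) (fun i j => Commute.all _ _) ?_
  · exact exists_hom_lattice σ hσ
  · rw [eq_top_iff]
    rintro x -
    rw [← Finset.univ_prod_mulSingle x]
    refine Subgroup.prod_mem _ fun i _ => ?_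
    have h1 : Pi.mulSingle i (x i) = latticeGen k i ^ (Multiplicative.toAdd (x i)) := by
      rw [latticeGen, ← Pi.mulSingle_zpow, ← ofAdd_zsmul, smul_eq_mul, mul_one, ofAdd_toAdd]
    rw [h1]
    exact Subgroup.zpow_mem _ (Subgroup.subset_closure (Set.mem_range_self i)) _

/-- (1) For every smooth projective curve `X` (of any genus `g ≥ 0`) and every `r`, the set
`M_r(X)(ℤ)` is Zariski dense in `M_r(X)(ℂ)`.
(2) The same for every abelian variety, indeed for the group `ℤ^k` for every `k`.
(3) If `g ≥ 2` and `r ≥ 1`, then the irreducible representations `π_1(X) → SL_r(ℤ)` are Zariski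
dense in the representation variety `Rep_r(X)(ℂ) = Hom(π_1(X), SL_r(ℂ))`. -/
theorem result :
    (∀ g r : ℕ, 0 < r → IntegerPointsDense (surfaceGen g) r) ∧
    (∀ k r : ℕ, 0 < r → IntegerPointsDense (latticeGen k) r) ∧
    (∀ g r : ℕ, 2 ≤ g → 0 < r → ∀ P : MvPolynomial ((Fin g × Bool) × Fin r × Fin r) ℂ,
      (∀ ρ : Rep (SurfaceGroup g) r ℤ, Irred (baseChange ρ) →
        MvPolynomial.eval (coords (surfaceGen g) (baseChange ρ)) P = 0) →
      ∀ ρ : Rep (SurfaceGroup g) r ℂ, MvPolynomial.eval (coords (surfaceGen g) ρ) P = 0) := by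
  refine ⟨fun g r hr => ?_, fun k r _ => lattice k r, fun g r hg hr P hP ρ =>
    dense_reps g r hg hr P hP ρ⟩
  rcases Nat.lt_or_ge g 2 with hg | hg
  · interval_cases g
    · exact surface_zero r
    · exact surface_one r
  · intro P _ hP ρ _
    exact dense_reps g r hg hr P (fun ρ' hirr => hP _ (semisimple_of_irred hirr)
      (integral_point _ ρ')) ρ

end Vale.Agent.Results.P002.IntegerPoints
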