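import Vale.Agent.P002.FinalB

/-!
Potential density of integral points on the relative `SL_r` character varieties of smooth curves of
genus at least two with prescribed quasi-unipotent local monodromy, for every rank `r`, over one
number field.
-/

namespace Vale.Agent.Results.P002.PuncturedCurves

open Matrix NumberField

/-- Generators: `inl (i, false)` is `a_i`, `inl (i, true)` is `b_i`, `inr j` is the meridian `γ_j`
around the `j`-th puncture. -/
abbrev Gen (g n : ℕ) : Type := (Fin g × Bool) ⊕ Fin n

/-- The relator `[a_1,b_1]⋯[a_g,b_g] γ_1⋯γ_n`. -/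
def relator (g n : ℕ) : FreeGroup (Gen g n) :=
  (List.ofFn fun i : Fin g => FreeGroup.of (Sum.inl (i, false)) * FreeGroup.of (Sum.inl (i, true)) *
    (FreeGroup.of (Sum.inl (i, false)))⁻¹ * (FreeGroup.of (Sum.inl (i, true)))⁻¹).prod *
  (List.ofFn fun j : Fin n => FreeGroup.of (Sum.inr j)).prod

/-- The fundamental group of a smooth projective curve of genus `g` minus `n` points. -/
abbrev CurveGroup (g n : ℕ) : Type := PresentedGroup {relator g n}

/-- A representation in `SL_r(A)`, that is, an `A`-point of `Rep_r`. -/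
abbrev Rep (g n r : ℕ) (A : Type) [CommRing A] : Type :=
  CurveGroup g n →* SpecialLinearGroup (Fin r) A

/-- The value of a representation at the meridian around the `j`-th puncture. -/
def atMeridian {g n r : ℕ} {A : Type} [CommRing A] (ρ : Rep g n r A) (j : Fin n) :
    SpecialLinearGroup (Fin r) A := ρ (PresentedGroup.of (Sum.inr j))

/-- The coordinates of a representation in `Rep_r ⊂ SL_r^{2g+n}`: the matrix entries of the images
of the generators. -/
def coords {g n r : ℕ} {A : Type} [CommRing A] (ρ : Rep g n r A) :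
    Gen g n × Fin r × Fin r → A :=
  fun k => (ρ (PresentedGroup.of k.1)).1 k.2.1 k.2.2

/-- Simultaneous conjugation of a representation. -/
def conj {g n r : ℕ} {A : Type} [CommRing A] (h : SpecialLinearGroup (Fin r) A)
    (ρ : Rep g n r A) : Rep g n r A := (MulAut.conj h).toMonoidHom.comp ρ

/-- Base change of an integral representation along `φ : L → ℂ`. -/
def baseChange {g n r : ℕ} {L : Type} [Field L] (φ : L →+* ℂ) (ρ : Rep g n r (𝓞 L)) :
    Rep g n r ℂ :=
  (SpecialLinearGroup.map (φ.comp (algebraMap (𝓞 L) L))).comp ρ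

/-- Irreducibility: there is no invariant subspace besides `0` and the whole space. -/
def Irred {g n r : ℕ} (ρ : Rep g n r ℂ) : Prop :=
  ∀ V : Submodule ℂ (Fin r → ℂ), (∀ γ, ∀ v ∈ V, (ρ γ).1.mulVec v ∈ V) → V = ⊥ ∨ V = ⊤

/-- The integral polynomial `Q` in the matrix entries of the generators defines an `SL_r`-invariant
element of `O(Rep_r)`, that is, a regular function on the scheme `M_r` over `ℤ`. -/
def Invariant (g n r : ℕ) (Q : MvPolynomial (Gen g n × Fin r × Fin r) ℤ) : Prop :=
  ∀ (A : Type) [CommRing A] (h : SpecialLinearGroup (Fin r) A) (ρ : Rep g n r A),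
    MvPolynomial.aeval (coords (conj h ρ)) Q = MvPolynomial.aeval (coords ρ) Q

/-- The complex point of `M_r` given by `ρ` comes from an `𝓞 L`-point of `M_r` (along `φ`). -/
def IntegralPoint {g n r : ℕ} {L : Type} [Field L] (φ : L →+* ℂ) (ρ : Rep g n r ℂ) : Prop :=
  ∀ Q, Invariant g n r Q → ∃ z : 𝓞 L, φ z = MvPolynomial.aeval (coords ρ) Q

/-- The matrix is quasi-unipotent: all its eigenvalues are roots of unity. -/
def QuasiUnipotent {r : ℕ} (A : SpecialLinearGroup (Fin r) ℂ) : Prop :=
  ∀ μ : ℂ, A.1.charpoly.IsRoot μ → ∃ m : ℕ, 0 < m ∧ μ ^ m = 1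

/-- All eigenvalues of the matrices `C j` are `M`-th roots of unity. -/
def HasExponent {n r : ℕ} (C : Fin n → SpecialLinearGroup (Fin r) ℂ) (M : ℕ) : Prop :=
  ∀ (j : Fin n) (μ : ℂ), (C j).1.charpoly.IsRoot μ → μ ^ M = 1

/-- The local monodromies of `ρ` lie in the conjugacy classes of the matrices `C j`. -/
def HasClasses {g n r : ℕ} (C : Fin n → SpecialLinearGroup (Fin r) ℂ) (ρ : Rep g n r ℂ) : Prop :=
  ∀ j, IsConj (C j) (atMeridian ρ j)

/-- Let `g ≥ 2`, `r ≥ 1`, `n ≥ 0` and let `C_1, …, C_n` be quasi-unipotent matrices. Then there is a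
positive `M` such that all eigenvalues of the `C_j` are `M`-th roots of unity, and for every such `M`
and every embedding `φ` of `L = ℚ(ζ_{10rM})` in `ℂ`:
(1) every polynomial that vanishes at all irreducible representations defined over `𝓞 L` with local
monodromies in the classes of the `C_j` vanishes at all complex representations with local
monodromies in these classes;
(2) every conjugation-invariant polynomial that vanishes at the irreducible points of `Y` which come
from `M_r(𝓞 L)` vanishes on `Y`. -/
theorem result (g n r : ℕ) (hg : 2 ≤ g) (hr : 0 < r) (C : Fin n → SpecialLinearGroup (Fin r) ℂ)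
    (hC : ∀ j, QuasiUnipotent (C j)) :
    (∃ M : ℕ, 0 < M ∧ HasExponent C M) ∧
    ∀ M : ℕ, 0 < M → HasExponent C M → ∀ φ : CyclotomicField (10 * r * M) ℚ →+* ℂ,
      (∀ P : MvPolynomial (Gen g n × Fin r × Fin r) ℂ,
        (∀ ρ : Rep g n r (𝓞 (CyclotomicField (10 * r * M) ℚ)), HasClasses C (baseChange φ ρ) →
          Irred (baseChange φ ρ) → MvPolynomial.eval (coords (baseChange φ ρ)) P = 0) →
        ∀ ρ : Rep g n r ℂ, HasClasses C ρ → MvPolynomial.eval (coords ρ) P = 0) ∧
      (∀ P : MvPolynomial (Gen g n × Fin r × Fin r) ℂ,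
        (∀ (h : SpecialLinearGroup (Fin r) ℂ) (ρ : Rep g n r ℂ),
          MvPolynomial.eval (coords (conj h ρ)) P = MvPolynomial.eval (coords ρ) P) →
        (∀ ρ : Rep g n r ℂ, HasClasses C ρ → Irred ρ → IntegralPoint φ ρ →
          MvPolynomial.eval (coords ρ) P = 0) →
        ∀ ρ : Rep g n r ℂ, HasClasses C ρ → MvPolynomial.eval (coords ρ) P = 0) := by
  refine ⟨?_, fun M hM hCM φ => ?_⟩
  · have h1 : ∀ (j : Fin n) (μ : ℂ), ∃ m : ℕ, 0 < m ∧
        ((C j).1.charpoly.IsRoot μ → μ ^ m = 1) := by
      intro j μ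
      by_cases h : (C j).1.charpoly.IsRoot μ
      · obtain ⟨m, hm, h2⟩ := hC j μ h
        exact ⟨m, hm, fun _ => h2⟩
      · exact ⟨1, one_pos, fun h' => absurd h' h⟩
    choose m hm hm' using h1
    refine ⟨∏ j, ∏ μ ∈ (C j).1.charpoly.roots.toFinset, m j μ,
      Finset.prod_pos fun j _ => Finset.prod_pos fun μ _ => hm j μ, fun j μ hμ => ?_⟩
    have h2 : μ ∈ (C j).1.charpoly.roots.toFinset := by
      rw [Multiset.mem_toFinset, Polynomial.mem_roots (Matrix.charpoly_monic _).ne_zero]
      exact hμ
    have h3 : m j μ ∣ ∏ j, ∏ μ ∈ (C j).1.charpoly.roots.toFinset, m j μ :=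
      (Finset.dvd_prod_of_mem _ h2).trans
        (Finset.dvd_prod_of_mem (fun j => ∏ μ ∈ (C j).1.charpoly.roots.toFinset, m j μ)
          (Finset.mem_univ j))
    obtain ⟨k, hk⟩ := h3
    rw [hk, pow_mul, hm' j μ hμ, one_pow]
  have key : ∀ P : MvPolynomial (Gen g n × Fin r × Fin r) ℂ,
      (∀ ρ : Rep g n r (𝓞 (CyclotomicField (10 * r * M) ℚ)), HasClasses C (baseChange φ ρ) →
        Irred (baseChange φ ρ) → MvPolynomial.eval (coords (baseChange φ ρ)) P = 0) →
      ∀ ρ : Rep g n r ℂ, HasClasses C ρ → MvPolynomial.eval (coords ρ) P = 0 := by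
    intro P hP ρ hρC
    obtain ⟨g, rfl⟩ : ∃ g', g = g' + 2 := ⟨g - 2, by omega⟩
    refine Vale.Agent.P002.final_punctured g n r M hr hM φ C hCM P (fun σ hσ hcl hirr => ?_)
      (fun k => ρ (PresentedGroup.of k)) ?_ hρC
    · have hrel : ∀ x ∈ ({relator (g + 2) n} : Set (FreeGroup (Gen (g + 2) n))),
          FreeGroup.lift σ x = 1 := by
        intro x hx
        rw [Set.mem_singleton_iff.mp hx, relator, map_mul, map_list_prod, map_list_prod,
          List.map_ofFn, List.map_ofFn, ← hσ]
        congr 3
        · funext i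
          simp [Function.comp]
        · funext i
          simp [Function.comp]
      have h1 := hP (PresentedGroup.toGroup hrel)
        (fun j => by simpa [atMeridian, baseChange, PresentedGroup.toGroup.of] using hcl j)
        (fun V hV => hirr V (fun k v hv => by
        have := hV (PresentedGroup.of k) v hv
        simpa [baseChange, PresentedGroup.toGroup.of] using this))
      convert h1 using 2
      congr 1
      funext k
      simp [coords, baseChange, PresentedGroup.toGroup.of]
    · have h2 : ρ (PresentedGroup.mk {relator (g + 2) n} (relator (g + 2) n)) = 1 := by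
        have : PresentedGroup.mk {relator (g + 2) n} (relator (g + 2) n) = 1 :=
          PresentedGroup.one_of_mem (Set.mem_singleton _)
        rw [this, map_one]
      have h4 : ρ.comp (PresentedGroup.mk {relator (g + 2) n}) =
          FreeGroup.lift (fun k => ρ (PresentedGroup.of k)) := by
        refine FreeGroup.ext_hom _ _ fun k => ?_
        simp [PresentedGroup.of]
      have h5 : FreeGroup.lift (fun k => ρ (PresentedGroup.of k)) (relator (g + 2) n) = 1 := by
        rw [← h4]; exact h2
      refine Eq.trans ?_ h5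
      unfold relator
      rw [map_mul, map_list_prod, map_list_prod, List.map_ofFn, List.map_ofFn]
      congr 3
      · funext i
        simp [Function.comp]
      · funext i
        simp [Function.comp]
  refine ⟨key, fun P _ hP => key P fun ρ hcl hirr => hP _ hcl hirr fun Q _ => ?_⟩
  refine ⟨MvPolynomial.aeval (coords ρ) Q, ?_⟩
  have h3 := MvPolynomial.eval₂_comp_left (φ.comp (algebraMap
    (𝓞 (CyclotomicField (10 * r * M) ℚ)) (CyclotomicField (10 * r * M) ℚ))) (algebraMap ℤ _)
    (coords ρ) Q
  rw [MvPolynomial.aeval_def, MvPolynomial.aeval_def]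
  refine Eq.trans h3 ?_
  congr 1
  exact Subsingleton.elim _ _

end Vale.Agent.Results.P002.PuncturedCurves
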