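import Vale.Agent.P002.POmni
import Vale.Agent.Results.P002.AlgebraicClasses
import Vale.Agent.Results.P002.IntegerPoints
import Vale.Agent.Results.P002.PuncturedCurves

/-!
Integral points on the `SL_r` character varieties, for every rank `r`, of the varieties
`X = X_0 × X_1 × ⋯ × X_s`, where the fundamental group of `X_0` is virtually nilpotent and the other
factors are smooth curves: potential density over one number field, with and without prescribed
local monodromies; more precise results for single curves.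
-/

namespace Vale.Agent.Results.P002.CharacterVarieties

open Matrix NumberField

section definitions
variable {π ι : Type} [Group π]

/-- A representation of the group `π` in `SL_r(A)`, that is, an `A`-point of `Rep_r`. -/
abbrev Rep (π : Type) [Group π] (r : ℕ) (A : Type) [CommRing A] : Type :=
  π →* SpecialLinearGroup (Fin r) A

/-- The coordinates of a representation in `Rep_r ⊂ SL_r^ι` with respect to the family of
generators `s`: the matrix entries of the images of the generators. -/
def coords (s : ι → π) {r : ℕ} {A : Type} [CommRing A] (ρ : Rep π r A) :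
    ι × Fin r × Fin r → A :=
  fun k => (ρ (s k.1)).1 k.2.1 k.2.2

/-- Simultaneous conjugation of a representation. -/
def conj {r : ℕ} {A : Type} [CommRing A] (h : SpecialLinearGroup (Fin r) A) (ρ : Rep π r A) :
    Rep π r A := (MulAut.conj h).toMonoidHom.comp ρ

/-- Irreducibility: there is no invariant subspace besides `0` and the whole space. -/
def Irred {r : ℕ} (ρ : Rep π r ℂ) : Prop :=
  ∀ V : Submodule ℂ (Fin r → ℂ), (∀ γ, ∀ v ∈ V, (ρ γ).1.mulVec v ∈ V) → V = ⊥ ∨ V = ⊤

/-- Semisimplicity: every invariant subspace has an invariant complement. -/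
def Semisimple {r : ℕ} (ρ : Rep π r ℂ) : Prop :=
  ∀ V : Submodule ℂ (Fin r → ℂ), (∀ γ, ∀ v ∈ V, (ρ γ).1.mulVec v ∈ V) →
    ∃ W : Submodule ℂ (Fin r → ℂ), (∀ γ, ∀ v ∈ W, (ρ γ).1.mulVec v ∈ W) ∧ IsCompl V W

/-- The integral polynomial `Q` in the matrix entries of the generators defines an `SL_r`-invariant
element of `O(Rep_r)`, that is, a regular function on the scheme `M_r` over `ℤ`. -/
def Invariant (s : ι → π) (r : ℕ) (Q : MvPolynomial (ι × Fin r × Fin r) ℤ) : Prop :=
  ∀ (A : Type) [CommRing A] (h : SpecialLinearGroup (Fin r) A) (ρ : Rep π r A),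
    MvPolynomial.aeval (coords s (conj h ρ)) Q = MvPolynomial.aeval (coords s ρ) Q

/-- The complex point of `M_r` given by `ρ` is an `𝓞 L`-integral point. -/
def IntegralPoint (s : ι → π) {r : ℕ} (L : IntermediateField ℚ ℂ) (ρ : Rep π r ℂ) : Prop :=
  ∀ Q, Invariant s r Q → ∃ z : 𝓞 L, algebraMap L ℂ z = MvPolynomial.aeval (coords s ρ) Q

/-- The representation `ρ` is defined over `𝓞 L`: it has values in `SL_r(𝓞 L)`. -/
def DefinedOver {r : ℕ} (L : IntermediateField ℚ ℂ) (ρ : Rep π r ℂ) : Prop :=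
  ∀ γ i j, ∃ z : 𝓞 L, algebraMap L ℂ z = (ρ γ).1 i j

/-- The elements `c k` have images in the conjugacy classes of the `C k`. -/
def HasClasses {K : Type} (c : K → π) {r : ℕ} (C : K → SpecialLinearGroup (Fin r) ℂ)
    (ρ : Rep π r ℂ) : Prop := ∀ k, IsConj (C k) (ρ (c k))

/-- `ρ` represents a point of `Y`: it is semisimple with the prescribed classes. -/
def InY {K : Type} (c : K → π) {r : ℕ} (C : K → SpecialLinearGroup (Fin r) ℂ)
    (ρ : Rep π r ℂ) : Prop := Semisimple ρ ∧ HasClasses c C ρ

/-- `M_r(𝓞 L) ∩ Y` is Zariski dense in `Y`, where `Y` is the set of points of `M_r(ℂ)` given by the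
representations satisfying `T`: every regular function on `M_r` over `ℂ` (a conjugation-invariant
polynomial function of representations) which vanishes at the points of `M_r(𝓞 L) ∩ Y` vanishes
on `Y`. -/
def DenseIn (s : ι → π) {r : ℕ} (T : Rep π r ℂ → Prop) (L : IntermediateField ℚ ℂ) : Prop :=
  ∀ P : MvPolynomial (ι × Fin r × Fin r) ℂ,
    (∀ (h : SpecialLinearGroup (Fin r) ℂ) (ρ : Rep π r ℂ),
      MvPolynomial.eval (coords s (conj h ρ)) P = MvPolynomial.eval (coords s ρ) P) →
    (∀ ρ : Rep π r ℂ, T ρ → IntegralPoint s L ρ → MvPolynomial.eval (coords s ρ) P = 0) →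
    ∀ ρ : Rep π r ℂ, T ρ → MvPolynomial.eval (coords s ρ) P = 0

/-- The irreducible representations over `𝓞 L` satisfying `T` are Zariski dense among all
representations satisfying `T`: every polynomial in the coordinates which vanishes at the former
vanishes at the latter. -/
def DenseReps (s : ι → π) {r : ℕ} (T : Rep π r ℂ → Prop) (L : IntermediateField ℚ ℂ) : Prop :=
  ∀ P : MvPolynomial (ι × Fin r × Fin r) ℂ,
    (∀ ρ : Rep π r ℂ, T ρ → Irred ρ → DefinedOver L ρ → MvPolynomial.eval (coords s ρ) P = 0) →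
    ∀ ρ : Rep π r ℂ, T ρ → MvPolynomial.eval (coords s ρ) P = 0

end definitions

/-- All eigenvalues of `C` are roots of unity of order dividing `M`. -/
def QuasiUnipotent (M : ℕ) {r : ℕ} (C : SpecialLinearGroup (Fin r) ℂ) : Prop :=
  ∀ μ : ℂ, C.1.charpoly.IsRoot μ → μ ^ M = 1

/-- The group `N` is virtually nilpotent: it has a nilpotent subgroup of finite index. -/
def VirtuallyNilpotent (N : Type) [Group N] : Prop :=
  ∃ H : Subgroup N, H.FiniteIndex ∧ Group.IsNilpotent H

/-- The relator `[a_1,b_1]⋯[a_g,b_g] γ_1⋯γ_n`; the generator `inl (i, false)` is `a_i`,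
`inl (i, true)` is `b_i`, and `inr j` is the loop `γ_j` around the `j`-th puncture. -/
def relator (g n : ℕ) : FreeGroup ((Fin g × Bool) ⊕ Fin n) :=
  (List.ofFn fun i : Fin g => FreeGroup.of (Sum.inl (i, false)) * FreeGroup.of (Sum.inl (i, true)) *
    (FreeGroup.of (Sum.inl (i, false)))⁻¹ * (FreeGroup.of (Sum.inl (i, true)))⁻¹).prod *
  (List.ofFn fun j : Fin n => FreeGroup.of (Sum.inr j)).prod

/-- The fundamental group of a smooth projective curve of genus `g` minus `n` points. -/
abbrev CurveGroup (g n : ℕ) : Type := PresentedGroup {relator g n}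

/-- The standard generators. -/
def gens (g n : ℕ) : (Fin g × Bool) ⊕ Fin n → CurveGroup g n := PresentedGroup.of

/-- The meridian around the `j`-th puncture. -/
def meridian (g n : ℕ) (j : Fin n) : CurveGroup g n := PresentedGroup.of (Sum.inr j)

/-- The group `N × π_1(X_1) × ⋯ × π_1(X_s)`, where `X_i` is a smooth projective curve of genus
`g i` minus `n i` points. -/
abbrev ProductGroup (N : Type) {s : ℕ} (g n : Fin s → ℕ) : Type :=
  N × ((i : Fin s) → CurveGroup (g i) (n i))

/-- The generators of the product, for a family of generators `t` of `N`. -/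
def genAll {N κ : Type} [Group N] (t : κ → N) {s : ℕ} (g n : Fin s → ℕ) :
    κ ⊕ (Σ i : Fin s, (Fin (g i) × Bool) ⊕ Fin (n i)) → ProductGroup N g n :=
  Sum.elim (fun k => (t k, 1)) (fun k => (1, Pi.mulSingle k.1 (gens (g k.1) (n k.1) k.2)))

/-- The index set of the prescribed conjugacy classes: `J` together with the punctures of the curves
`X_i` which belong to `S i`. -/
abbrev Marked (J : Type) {s : ℕ} {n : Fin s → ℕ} (S : (i : Fin s) → Set (Fin (n i))) : Type :=
  J ⊕ (Σ i : Fin s, {j : Fin (n i) // j ∈ S i})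

/-- The elements at which the conjugacy class is prescribed: the elements `e j` of `N` (for instance
the meridians of the boundary components of `X_0`), and the meridians around the punctures of `X_i`
which belong to `S i`. -/
def marks {N J : Type} [Group N] (e : J → N) {s : ℕ} (g n : Fin s → ℕ)
    (S : (i : Fin s) → Set (Fin (n i))) : Marked J S → ProductGroup N g n :=
  Sum.elim (fun j => (e j, 1)) (fun q => (1, Pi.mulSingle q.1 (meridian (g q.1) (n q.1) q.2.1)))

theorem lift_int {L : IntermediateField ℚ ℂ} {x : ℂ} (hx : Vale.Agent.P002.OInt L x) :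
    ∃ z : 𝓞 L, algebraMap L ℂ z = x := by
  obtain ⟨hx, hxi⟩ := hx
  have h1 : IsIntegral ℤ (⟨x, hx⟩ : L) :=
    (isIntegral_algHom_iff (L.val.restrictScalars ℤ) (RingHom.injective _)).mp hxi
  exact ⟨⟨⟨x, hx⟩, h1⟩, rfl⟩

theorem integral_point {π ι : Type} [Group π] (s : ι → π) {r : ℕ} {L : IntermediateField ℚ ℂ}
    (ρ : Rep π r ℂ) (h : ∀ γ i j, Vale.Agent.P002.OInt L ((ρ γ).1 i j)) : IntegralPoint s L ρ := by
  intro Q hQ
  refine lift_int ?_
  clear hQ
  induction Q using MvPolynomial.induction_on with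
  | C a =>
    rw [MvPolynomial.aeval_C]
    exact ⟨by simp, isIntegral_algebraMap⟩
  | add p q hp hq => rw [map_add]; exact hp.add hq
  | mul_X p k hp => rw [map_mul, MvPolynomial.aeval_X]; exact hp.mul (h _ _ _)

theorem bridge {π ι K : Type} [Group π] (s : ι → π) (c : K → π) (h : Vale.Agent.P002.PD c)
    (r M : ℕ) (hr : 0 < r) (hM : 0 < M) :
    ∃ L : IntermediateField ℚ ℂ, FiniteDimensional ℚ L ∧
      ∀ C : K → SpecialLinearGroup (Fin r) ℂ, (∀ k, QuasiUnipotent M (C k)) →
        DenseIn s (InY c C) L := by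
  obtain ⟨L, hfd, hL⟩ := Vale.Agent.P002.dense_bridge (π := π) (c := c) h s r M hr hM
  refine ⟨L, hfd, fun C hC P hinv hv ρ hρ => ?_⟩
  refine hL P hinv ρ hρ.1 ?_ ?_
  · intro k
    exact Vale.Agent.P002.QU.conj ((Vale.Agent.P002.conjM_iff_isConj hr _ _).mpr (hρ.2 k)) (hC k)
  · intro ρ' hss hint hcl
    exact hv ρ' ⟨hss, fun k => (hρ.2 k).trans (hcl k)⟩ (integral_point _ ρ' hint)

theorem fg_of {N κ : Type} [Group N] [Finite κ] (t : κ → N)
    (ht : Subgroup.closure (Set.range t) = ⊤) : Group.FG N :=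
  Group.fg_iff.mpr ⟨Set.range t, ht, Set.finite_range t⟩

theorem pd_marks {N J : Type} [Group N] [Group.FG N] (hN : VirtuallyNilpotent N) (e : J → N)
    (s : ℕ) (g n : Fin s → ℕ) (S : (i : Fin s) → Set (Fin (n i)))
    (h : ∀ i, 2 ≤ g i ∨ n i = 0 ∨ ∃ j, j ∉ S i) :
    Vale.Agent.P002.PD (marks e g n S) := by
  obtain ⟨H, h1, h2⟩ := hN
  exact Vale.Agent.P002.pd_prod (Vale.Agent.P002.pd_vnil H h2 e)
    (Vale.Agent.P002.pd_curves s g n (fun i j => j ∈ S i) h)

theorem algClasses {g n r : ℕ} (hg : 2 ≤ g) (hr : 0 < r)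
    (C : Fin n → SpecialLinearGroup (Fin r) ℂ) :
    ((∃ L : IntermediateField ℚ ℂ, FiniteDimensional ℚ L ∧
      DenseIn (gens g n) (InY (meridian g n) C) L) ↔
      ∀ (j : Fin n) (μ : ℂ), (C j).1.charpoly.IsRoot μ → IsIntegral ℤ μ) ∧
    ∃ ρ : Rep (CurveGroup g n) r ℂ, Irred ρ ∧ InY (meridian g n) C ρ :=
  ⟨(AlgebraicClasses.result g n r hg hr C).1, (AlgebraicClasses.result g n r hg hr C).2.2⟩

theorem explicit {g n r M : ℕ} (hg : 2 ≤ g) (hr : 0 < r) (hM : 0 < M)
    (C : Fin n → SpecialLinearGroup (Fin r) ℂ) (hC : ∀ j, QuasiUnipotent M (C j))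
    (L : IntermediateField ℚ ℂ) (ζ : ℂ) (hζL : ζ ∈ L) (hζ : IsPrimitiveRoot ζ (10 * r * M)) :
    DenseReps (gens g n) (HasClasses (meridian g n) C) L := by
  have hq : 0 < 10 * r * M := by positivity
  have hne : NeZero (10 * r * M) := ⟨hq.ne'⟩
  have hneQ : NeZero ((10 * r * M : ℕ) : ℚ) := ⟨Nat.cast_ne_zero.mpr hq.ne'⟩
  have hcyc : IsCyclotomicExtension {10 * r * M} ℚ (CyclotomicField (10 * r * M) ℚ) :=
    CyclotomicField.isCyclotomicExtension (10 * r * M) ℚ
  have hC' : ∀ j, PuncturedCurves.QuasiUnipotent (C j) := fun j μ h => ⟨M, hM, hC j μ h⟩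
  let φ : CyclotomicField (10 * r * M) ℚ →ₐ[ℚ] ℂ := IsAlgClosed.lift
  have hφL : ∀ x, φ x ∈ L := by
    have h1 : Algebra.adjoin ℚ
        {IsCyclotomicExtension.zeta (10 * r * M) ℚ (CyclotomicField (10 * r * M) ℚ)} = ⊤ :=
      IsCyclotomicExtension.adjoin_primitive_root_eq_top
        (IsCyclotomicExtension.zeta_spec (10 * r * M) ℚ (CyclotomicField (10 * r * M) ℚ))
    intro x
    have hx : x ∈ Algebra.adjoin ℚ
        {IsCyclotomicExtension.zeta (10 * r * M) ℚ (CyclotomicField (10 * r * M) ℚ)} := by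
      rw [h1]; trivial
    induction hx using Algebra.adjoin_induction with
    | mem y hy =>
      rw [Set.mem_singleton_iff.mp hy]
      have h2 : φ (IsCyclotomicExtension.zeta (10 * r * M) ℚ
          (CyclotomicField (10 * r * M) ℚ)) ^ (10 * r * M) = 1 := by
        rw [← map_pow, (IsCyclotomicExtension.zeta_spec (10 * r * M) ℚ
          (CyclotomicField (10 * r * M) ℚ)).pow_eq_one, map_one]
      obtain ⟨i, -, hi⟩ := hζ.eq_pow_of_pow_eq_one h2
      rw [← hi]
      exact L.pow_mem hζL i
    | algebraMap c => rw [AlgHom.commutes]; exact L.algebraMap_mem c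
    | add a b _ _ ha hb => rw [map_add]; exact L.add_mem ha hb
    | mul a b _ _ ha hb => rw [map_mul]; exact L.mul_mem ha hb
  obtain ⟨h1, -⟩ := (PuncturedCurves.result g n r hg hr C hC').2 M hM (fun j μ h => hC j μ h)
    (φ : CyclotomicField (10 * r * M) ℚ →+* ℂ)
  intro P hP ρ hρ
  refine h1 P (fun ρ' hcl hirr => ?_) ρ hρ
  refine hP _ hcl hirr fun γ i j => ?_
  refine lift_int ⟨hφL _, ?_⟩
  show IsIntegral ℤ (φ (((ρ' γ).1 i j : 𝓞 (CyclotomicField (10 * r * M) ℚ)) :
    CyclotomicField (10 * r * M) ℚ))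
  exact (RingOfIntegers.isIntegral_coe _).map (φ.restrictScalars ℤ)

/-- comparison of the presentations of the fundamental group of a projective curve -/
theorem closed_iso (g : ℕ) : ∃ φ : CurveGroup g 0 ≃* IntegerPoints.SurfaceGroup g,
    ∀ k, φ (gens g 0 (Sum.inl k)) = IntegerPoints.surfaceGen g k := by
  have hmap : ∀ {G : Type} [Group G] (f : (Fin g × Bool) ⊕ Fin 0 → G),
      FreeGroup.lift f (relator g 0) =
        FreeGroup.lift (fun k => f (Sum.inl k)) (IntegerPoints.relator g) := by
    intro G _ f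
    unfold relator IntegerPoints.relator
    rw [map_mul, map_list_prod, map_list_prod, map_list_prod, List.map_ofFn, List.map_ofFn,
      List.map_ofFn]
    simp [Function.comp_def]
  have h1 : ∀ w ∈ ({relator g 0} : Set (FreeGroup ((Fin g × Bool) ⊕ Fin 0))),
      FreeGroup.lift (Sum.elim (IntegerPoints.surfaceGen g) (fun j => j.elim0)) w = 1 := by
    intro w hw
    rw [Set.mem_singleton_iff.mp hw, hmap]
    have h2 : FreeGroup.lift (fun k => (PresentedGroup.of k : IntegerPoints.SurfaceGroup g))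
        (IntegerPoints.relator g) = 1 := by
      have h3 := Vale.Agent.P002.lift_mk (MonoidHom.id (IntegerPoints.SurfaceGroup g))
        (IntegerPoints.relator g)
      simp only [MonoidHom.id_apply] at h3
      rw [h3]
      exact PresentedGroup.one_of_mem (Set.mem_singleton _)
    exact h2
  have h2 : ∀ w ∈ ({IntegerPoints.relator g} : Set (FreeGroup (Fin g × Bool))),
      FreeGroup.lift (fun k => gens g 0 (Sum.inl k)) w = 1 := by
    intro w hw
    rw [Set.mem_singleton_iff.mp hw, ← hmap (gens g 0)]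
    have h3 := Vale.Agent.P002.lift_mk (MonoidHom.id (CurveGroup g 0)) (relator g 0)
    simp only [MonoidHom.id_apply] at h3
    refine Eq.trans h3 ?_
    exact PresentedGroup.one_of_mem (Set.mem_singleton _)
  let f : CurveGroup g 0 →* IntegerPoints.SurfaceGroup g := PresentedGroup.toGroup h1
  let f' : IntegerPoints.SurfaceGroup g →* CurveGroup g 0 := PresentedGroup.toGroup h2
  have hf : ∀ k, f (PresentedGroup.of (Sum.inl k)) = PresentedGroup.of k := fun k =>
    PresentedGroup.toGroup.of h1
  have hf' : ∀ k, f' (PresentedGroup.of k) = PresentedGroup.of (Sum.inl k) := fun k =>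
    PresentedGroup.toGroup.of h2
  refine ⟨MonoidHom.toMulEquiv f f' ?_ ?_, fun k => hf k⟩
  · refine PresentedGroup.ext fun k => ?_
    rcases k with k | k
    · rw [MonoidHom.comp_apply, hf, hf', MonoidHom.id_apply]
    · exact k.elim0
  · refine PresentedGroup.ext fun k => ?_
    rw [MonoidHom.comp_apply, hf', hf, MonoidHom.id_apply]

theorem int_of {L : IntermediateField ℚ ℂ} (z : ℤ) : ∃ w : 𝓞 L, algebraMap L ℂ w = (z : ℂ) :=
  ⟨(z : 𝓞 L), by simp⟩

theorem closedZ (g r : ℕ) (hr : 0 < r) :
    DenseIn (gens g 0) (Semisimple (π := CurveGroup g 0) (r := r)) ⊥ ∧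
    (2 ≤ g → DenseReps (gens g 0) (fun _ : Rep (CurveGroup g 0) r ℂ => True) ⊥) := by
  obtain ⟨φ, hφ⟩ := closed_iso g
  -- renaming of the variables
  let e : ((Fin g × Bool) ⊕ Fin 0) × Fin r × Fin r → (Fin g × Bool) × Fin r × Fin r := fun k =>
    (Sum.elim id (fun j => j.elim0) k.1, k.2)
  have hco : ∀ {A : Type} [CommRing A] (ρ : Rep (IntegerPoints.SurfaceGroup g) r A),
      coords (gens g 0) (ρ.comp φ.toMonoidHom) =
        IntegerPoints.coords (IntegerPoints.surfaceGen g) ρ ∘ e := by
    intro A _ ρ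
    funext k
    obtain ⟨k | k, a⟩ := k
    · show (ρ (φ (gens g 0 (Sum.inl k)))).1 a.1 a.2 = _
      rw [hφ]
      rfl
    · exact k.elim0
  have hco' : ∀ {A : Type} [CommRing A] (ρ : Rep (CurveGroup g 0) r A),
      coords (gens g 0) ρ =
        IntegerPoints.coords (IntegerPoints.surfaceGen g) (ρ.comp φ.symm.toMonoidHom) ∘ e := by
    intro A _ ρ
    rw [← hco]
    congr 1
    ext x
    simp
  refine ⟨fun P hinv hv ρ hρ => ?_, fun hg P hP ρ _ => ?_⟩
  · rw [hco', ← MvPolynomial.eval_rename]
    refine IntegerPoints.result.1 g r hr (MvPolynomial.rename e P) ?_ ?_ _ ?_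
    · intro h ρ'
      rw [MvPolynomial.eval_rename, MvPolynomial.eval_rename, ← hco, ← hco]
      exact hinv h (ρ'.comp φ.toMonoidHom)
    · intro ρ' hss hint
      rw [MvPolynomial.eval_rename, ← hco]
      refine hv _ (fun V hV => ?_) (fun Q hQ => ?_)
      · obtain ⟨W, hW, hc⟩ := hss V (fun γ v hvV => by
          have := hV (φ.symm γ) v hvV
          simpa using this)
        exact ⟨W, fun γ v hvW => hW (φ γ) v hvW, hc⟩
      · obtain ⟨z, hz⟩ := hint (MvPolynomial.rename e Q) (fun A _ h ρ'' => by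
          rw [MvPolynomial.aeval_rename, MvPolynomial.aeval_rename, ← hco, ← hco]
          exact hQ A h (ρ''.comp φ.toMonoidHom))
        obtain ⟨w, hw⟩ := int_of (L := ⊥) z
        refine ⟨w, ?_⟩
        rw [hw, hz, MvPolynomial.aeval_rename, ← hco]
    · intro V hV
      obtain ⟨W, hW, hc⟩ := hρ V (fun γ v hvV => by
        have := hV (φ γ) v hvV
        simpa using this)
      exact ⟨W, fun γ v hvW => hW (φ.symm γ) v hvW, hc⟩
  · rw [hco', ← MvPolynomial.eval_rename]
    refine IntegerPoints.result.2.2 g r hg hr (MvPolynomial.rename e P) ?_ _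
    intro ρ' hirr
    rw [MvPolynomial.eval_rename, ← hco]
    refine hP _ trivial (fun V hV => ?_) (fun γ i j => ?_)
    · exact hirr V (fun γ v hvV => by
        have := hV (φ.symm γ) v hvV
        simpa using this)
    · exact int_of _

theorem latticeZ (k r : ℕ) (hr : 0 < r) :
    DenseIn (fun i : Fin k => (Pi.mulSingle i (Multiplicative.ofAdd 1) :
      Fin k → Multiplicative ℤ)) (Semisimple (r := r)) ⊥ := by
  intro P hinv hv ρ hρ
  refine IntegerPoints.result.2.1 k r hr P hinv ?_ ρ hρ
  intro ρ' hss hint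
  refine hv ρ' hss fun Q hQ => ?_
  obtain ⟨z, hz⟩ := hint Q hQ
  obtain ⟨w, hw⟩ := int_of (L := ⊥) z
  exact ⟨w, hw.trans hz⟩

/-- (1) Let `X = X_0 × X_1 × ⋯ × X_s`, where `N = π_1(X_0)` is a virtually nilpotent group with a
finite family of generators `t` (for instance `X_0` is a point or an abelian variety) and
`X_1, …, X_s` are smooth curves. If every curve `X_i` is projective or has genus at least two, then
for all `r, M ≥ 1` there is a number field `L ⊂ ℂ` such that for every choice of quasi-unipotent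
classes with eigenvalues of order dividing `M`, one for each component of the boundary (indeed at
arbitrary elements `e j` of `N`), `M_r(X)(𝓞 L) ∩ Y` is Zariski dense in `Y`. More generally, classes
may be prescribed at an arbitrary set `S i` of punctures of `X_i`, if for every `i` the genus of
`X_i` is at least two, or `X_i` is projective, or `X_i` has a puncture which is not in `S i`.
(2) If `X_1, …, X_s` are arbitrary smooth curves, then for every `r ≥ 1` some number field `L ⊂ ℂ`
makes `M_r(X)(𝓞 L)` Zariski dense in `M_r(X)(ℂ)`.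
(3) Let `X` be a curve of genus `g ≥ 2` with `n ≥ 0` punctures, and let `C_1, …, C_n ∈ SL_r(ℂ)` be
arbitrary. Some number field `L ⊂ ℂ` makes `M_r(X)(𝓞 L) ∩ Y` Zariski dense in `Y` if and only if all
eigenvalues of the `C_j` are algebraic integers; and `Y` contains an irreducible representation.
(4) If in (3) the eigenvalues of the `C_j` are roots of unity of order dividing `M`, and the subfield
`L` of `ℂ` contains a primitive root of unity of order `10 r M`, then the irreducible representations
`π_1(X) → SL_r(𝓞 L)` with local monodromies in the classes of the `C_j` are Zariski dense among all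
complex representations with local monodromies in these classes.
(5) For projective curves `X` of any genus, `M_r(X)(ℤ)` is Zariski dense in `M_r(X)(ℂ)` (the case
`L = ℚ`), and if the genus is at least two, the irreducible representations `π_1(X) → SL_r(ℤ)` are
Zariski dense in `Hom(π_1(X), SL_r(ℂ))`. For the group `ℤ^k`, `M_r(ℤ)` is dense in `M_r(ℂ)`. -/
theorem result :
    (∀ (N κ J : Type) [Group N] [Finite κ] (t : κ → N) (e : J → N),
      Subgroup.closure (Set.range t) = ⊤ → VirtuallyNilpotent N →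
      ∀ (s : ℕ) (g n : Fin s → ℕ) (S : (i : Fin s) → Set (Fin (n i))),
      (∀ i, 2 ≤ g i ∨ n i = 0 ∨ ∃ j, j ∉ S i) → ∀ r M : ℕ, 0 < r → 0 < M →
      ∃ L : IntermediateField ℚ ℂ, FiniteDimensional ℚ L ∧
        ∀ C : Marked J S → SpecialLinearGroup (Fin r) ℂ, (∀ k, QuasiUnipotent M (C k)) →
          DenseIn (genAll t g n) (InY (marks e g n S) C) L) ∧
    (∀ (N κ : Type) [Group N] [Finite κ] (t : κ → N), Subgroup.closure (Set.range t) = ⊤ →
      VirtuallyNilpotent N → ∀ (s : ℕ) (g n : Fin s → ℕ) (r : ℕ), 0 < r →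
      ∃ L : IntermediateField ℚ ℂ, FiniteDimensional ℚ L ∧
        DenseIn (genAll t g n) (Semisimple (π := ProductGroup N g n) (r := r)) L) ∧
    (∀ g n r : ℕ, 2 ≤ g → 0 < r → ∀ C : Fin n → SpecialLinearGroup (Fin r) ℂ,
      ((∃ L : IntermediateField ℚ ℂ, FiniteDimensional ℚ L ∧
        DenseIn (gens g n) (InY (meridian g n) C) L) ↔
        ∀ (j : Fin n) (μ : ℂ), (C j).1.charpoly.IsRoot μ → IsIntegral ℤ μ) ∧
      ∃ ρ : Rep (CurveGroup g n) r ℂ, Irred ρ ∧ InY (meridian g n) C ρ) ∧
    (∀ g n r M : ℕ, 2 ≤ g → 0 < r → 0 < M → ∀ C : Fin n → SpecialLinearGroup (Fin r) ℂ,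
      (∀ j, QuasiUnipotent M (C j)) → ∀ (L : IntermediateField ℚ ℂ), ∀ ζ ∈ L,
      IsPrimitiveRoot ζ (10 * r * M) →
      DenseReps (gens g n) (HasClasses (meridian g n) C) L) ∧
    (∀ r : ℕ, 0 < r →
      (∀ g : ℕ, DenseIn (gens g 0) (Semisimple (π := CurveGroup g 0) (r := r)) ⊥) ∧
      (∀ g : ℕ, 2 ≤ g → DenseReps (gens g 0) (fun _ : Rep (CurveGroup g 0) r ℂ => True) ⊥) ∧
      (∀ k : ℕ, DenseIn (fun i : Fin k => (Pi.mulSingle i (Multiplicative.ofAdd 1) :
        Fin k → Multiplicative ℤ)) (Semisimple (r := r)) ⊥)) := by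
  refine ⟨?_, ?_, fun g n r hg hr C => algClasses hg hr C,
    fun g n r M hg hr hM C hC L ζ hζL hζ => explicit hg hr hM C hC L ζ hζL hζ,
    fun r hr => ⟨fun g => (closedZ g r hr).1, fun g => (closedZ g r hr).2,
      fun k => latticeZ k r hr⟩⟩
  · intro N κ J _ _ t e ht hN s g n S h r M hr hM
    have hfg := fg_of t ht
    exact bridge (genAll t g n) _ (pd_marks hN e s g n S h) r M hr hM
  · intro N κ _ _ t ht hN s g n r hr
    have hfg := fg_of t ht
    have h1 := pd_marks hN (fun k : Empty => (k.elim : N)) s g n (fun _ => ∅) (fun i => by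
      rcases Nat.eq_zero_or_pos (n i) with h | h
      · exact Or.inr (Or.inl h)
      · exact Or.inr (Or.inr ⟨⟨0, h⟩, Set.notMem_empty _⟩))
    obtain ⟨L, hfd, hL⟩ := bridge (genAll t g n) _ h1 r 1 hr one_pos
    have hno : (Empty ⊕ (Σ i : Fin s, {j : Fin (n i) // j ∈ (∅ : Set (Fin (n i)))})) → False := by
      rintro (k | ⟨i, j, hj⟩)
      · exact k.elim
      · exact hj
    refine ⟨L, hfd, fun P hinv hv ρ hρ => ?_⟩
    exact hL (fun _ => 1) (fun k => (hno k).elim) P hinv
      (fun ρ' h2 => hv ρ' h2.1) ρ ⟨hρ, fun k => (hno k).elim⟩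

end Vale.Agent.Results.P002.CharacterVarieties
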