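import Vale.Agent.P002.PAll2
import Vale.Agent.P002.PTBv

/-!
Potential density, over a single number field, of the integral points on the `SL_r` character
varieties of the varieties `X = X_0 × X_1 × ⋯ × X_s`, where the fundamental group of `X_0` is
virtually nilpotent and the other factors are smooth curves, for every rank `r`, with or without
prescribed quasi-unipotent local monodromy.
-/

namespace Vale.Agent.Results.P002.NilpotentProducts

open Matrix NumberField

section definitions
variable {π ι : Type} [Group π]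

/-- A representation of the group `π` in `SL_r(A)`, that is, an `A`-point of `Rep_r`. -/
abbrev Rep (π : Type) [Group π] (r : ℕ) (A : Type) [CommRing A] : Type :=
  π →* SpecialLinearGroup (Fin r) A

/-- The coordinates of a representation in `Rep_r ⊂ SL_r^ι` with respect to the family of
generators `s`: the matrix entries of the images of the generators. -/
def coords (s : ι → π) {r : ℕ} {A : Type} [CommRing A] (ρ : Rep π r A) :
    ι × Fin r × Fin r → A :=
  fun k => (ρ (s k.1)).1 k.2.1 k.2.2

/-- Simultaneous conjugation of a representation. -/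
def conj {r : ℕ} {A : Type} [CommRing A] (h : SpecialLinearGroup (Fin r) A) (ρ : Rep π r A) :
    Rep π r A := (MulAut.conj h).toMonoidHom.comp ρ

/-- Semisimplicity: every invariant subspace has an invariant complement. -/
def Semisimple {r : ℕ} (ρ : Rep π r ℂ) : Prop :=
  ∀ V : Submodule ℂ (Fin r → ℂ), (∀ γ, ∀ v ∈ V, (ρ γ).1.mulVec v ∈ V) →
    ∃ W : Submodule ℂ (Fin r → ℂ), (∀ γ, ∀ v ∈ W, (ρ γ).1.mulVec v ∈ W) ∧ IsCompl V W

/-- The integral polynomial `Q` in the matrix entries of the generators defines an `SL_r`-invariant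
element of `O(Rep_r)`, that is, a regular function on the scheme `M_r` over `ℤ`. -/
def Invariant (s : ι → π) (r : ℕ) (Q : MvPolynomial (ι × Fin r × Fin r) ℤ) : Prop :=
  ∀ (A : Type) [CommRing A] (h : SpecialLinearGroup (Fin r) A) (ρ : Rep π r A),
    MvPolynomial.aeval (coords s (conj h ρ)) Q = MvPolynomial.aeval (coords s ρ) Q

/-- The complex point of `M_r` given by `ρ` is an `𝓞 L`-integral point. -/
def IntegralPoint (s : ι → π) {r : ℕ} (L : IntermediateField ℚ ℂ) (ρ : Rep π r ℂ) : Prop :=
  ∀ Q, Invariant s r Q → ∃ z : 𝓞 L, algebraMap L ℂ z = MvPolynomial.aeval (coords s ρ) Q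

/-- `M_r(𝓞 L) ∩ Y` is Zariski dense in `Y`, where `Y` is the set of points of `M_r(ℂ)` given by the
representations satisfying `InY`: every regular function on `M_r` over `ℂ` (a conjugation-invariant
polynomial function of representations) which vanishes at the points of `M_r(𝓞 L) ∩ Y` vanishes
on `Y`. -/
def DenseIn (s : ι → π) {r : ℕ} (InY : Rep π r ℂ → Prop) (L : IntermediateField ℚ ℂ) : Prop :=
  ∀ P : MvPolynomial (ι × Fin r × Fin r) ℂ,
    (∀ (h : SpecialLinearGroup (Fin r) ℂ) (ρ : Rep π r ℂ),
      MvPolynomial.eval (coords s (conj h ρ)) P = MvPolynomial.eval (coords s ρ) P) →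
    (∀ ρ : Rep π r ℂ, InY ρ → IntegralPoint s L ρ → MvPolynomial.eval (coords s ρ) P = 0) →
    ∀ ρ : Rep π r ℂ, InY ρ → MvPolynomial.eval (coords s ρ) P = 0

end definitions

/-- A smooth projective curve of genus `g` with `n` marked points. The `j`-th marked point is
removed (it is a puncture) if `m j = 0`, and it is an orbifold point of order `m j` if `m j ≥ 1`
(an ordinary point if `m j = 1`). -/
structure Curve where
  /-- the genus -/
  g : ℕ
  /-- the number of marked points -/
  n : ℕ
  /-- the orders of the marked points -/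
  m : Fin n → ℕ

/-- The relator `[a_1,b_1]⋯[a_g,b_g] γ_1⋯γ_n`; the generator `inl (i, false)` is `a_i`,
`inl (i, true)` is `b_i`, and `inr j` is the loop `γ_j` around the `j`-th marked point. -/
def relator (g n : ℕ) : FreeGroup ((Fin g × Bool) ⊕ Fin n) :=
  (List.ofFn fun i : Fin g => FreeGroup.of (Sum.inl (i, false)) * FreeGroup.of (Sum.inl (i, true)) *
    (FreeGroup.of (Sum.inl (i, false)))⁻¹ * (FreeGroup.of (Sum.inl (i, true)))⁻¹).prod *
  (List.ofFn fun j : Fin n => FreeGroup.of (Sum.inr j)).prod

/-- The (orbifold) fundamental group of a curve, `⟨a_i, b_i, γ_j | ∏ [a_i, b_i] ∏ γ_j, γ_j ^ m_j⟩`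
(the relation `γ_j ^ m_j = 1` is void if the `j`-th marked point is a puncture). -/
abbrev CurveGroup (X : Curve) : Type :=
  PresentedGroup ({relator X.g X.n} ∪ Set.range fun j : Fin X.n =>
    (FreeGroup.of (Sum.inr j) : FreeGroup ((Fin X.g × Bool) ⊕ Fin X.n)) ^ X.m j)

/-- The fundamental group of the product `X_1 × ⋯ × X_s`. -/
abbrev ProductGroup {s : ℕ} (X : Fin s → Curve) : Type := (i : Fin s) → CurveGroup (X i)

/-- The generators of the fundamental group of the product: the generators of the factors. -/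
def gen {s : ℕ} (X : Fin s → Curve) :
    (Σ i : Fin s, (Fin (X i).g × Bool) ⊕ Fin (X i).n) → ProductGroup X :=
  fun k => Pi.mulSingle k.1 (PresentedGroup.of k.2)

/-- The loop around the `j`-th marked point of the `i`-th factor; if this point is a puncture, this
is the meridian of the corresponding boundary divisor of the product. -/
def meridian {s : ℕ} (X : Fin s → Curve) (i : Fin s) (j : Fin (X i).n) : ProductGroup X :=
  gen X ⟨i, Sum.inr j⟩

/-- The conjugacy class of `C` is quasi-unipotent: the eigenvalues of `C` are roots of unity, of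
order dividing `M`. -/
def QuasiUnipotent (M : ℕ) {r : ℕ} (C : SpecialLinearGroup (Fin r) ℂ) : Prop :=
  ∀ μ : ℂ, C.1.charpoly.IsRoot μ → μ ^ M = 1

/-- `ρ` represents a point of `Y`: it is semisimple, and `ρ (c k)` is in the conjugacy class of
`C k` for every `k`. -/
def InY {π K : Type} [Group π] (c : K → π) {r : ℕ} (C : K → SpecialLinearGroup (Fin r) ℂ)
    (ρ : Rep π r ℂ) : Prop :=
  Semisimple ρ ∧ ∀ k, IsConj (C k) (ρ (c k))

/-- The group `N` is virtually nilpotent: it has a nilpotent subgroup of finite index. -/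
def VirtuallyNilpotent (N : Type) [Group N] : Prop :=
  ∃ H : Subgroup N, H.FiniteIndex ∧ Group.IsNilpotent H

/-- The generators of the fundamental group `N × π_1(X_1) × ⋯ × π_1(X_s)` of the product
`X_0 × X_1 × ⋯ × X_s`, for a family of generators `t` of `N = π_1(X_0)`. -/
def genAll {N κ : Type} [Group N] (t : κ → N) {s : ℕ} (X : Fin s → Curve) :
    κ ⊕ (Σ i : Fin s, (Fin (X i).g × Bool) ⊕ Fin (X i).n) → N × ProductGroup X :=
  Sum.elim (fun k => (t k, 1)) (fun k => (1, gen X k))

/-- The index set of the prescribed conjugacy classes: `J` together with the marked points of the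
curves `X_i` which belong to `S i`. -/
abbrev Marked (J : Type) {s : ℕ} (X : Fin s → Curve) (S : (i : Fin s) → Set (Fin (X i).n)) : Type :=
  J ⊕ (Σ i : Fin s, {j : Fin (X i).n // j ∈ S i})

/-- The elements of `N × π_1(X_1) × ⋯ × π_1(X_s)` at which the conjugacy class is prescribed: the
elements `e j` of `N = π_1(X_0)` (for instance the meridians of the boundary components of `X_0`),
and the loops around the marked points of `X_i` which belong to `S i`. -/
def marks {N J : Type} [Group N] (e : J → N) {s : ℕ} (X : Fin s → Curve)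
    (S : (i : Fin s) → Set (Fin (X i).n)) : Marked J X S → N × ProductGroup X :=
  Sum.elim (fun j => (e j, 1)) (fun q => (1, meridian X q.1 q.2.1))

theorem lift_int {L : IntermediateField ℚ ℂ} {x : ℂ} (hx : Vale.Agent.P002.OInt L x) :
    ∃ z : 𝓞 L, algebraMap L ℂ z = x := by
  obtain ⟨hx, hxi⟩ := hx
  have h1 : IsIntegral ℤ (⟨x, hx⟩ : L) :=
    (isIntegral_algHom_iff (L.val.restrictScalars ℤ) (RingHom.injective _)).mp hxi
  exact ⟨⟨⟨x, hx⟩, h1⟩, rfl⟩

theorem integral_point {π ι : Type} [Group π] (s : ι → π) {r : ℕ} {L : IntermediateField ℚ ℂ}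
    (ρ : Rep π r ℂ) (h : ∀ γ i j, Vale.Agent.P002.OInt L ((ρ γ).1 i j)) : IntegralPoint s L ρ := by
  intro Q hQ
  refine lift_int ?_
  clear hQ
  induction Q using MvPolynomial.induction_on with
  | C a =>
    rw [MvPolynomial.aeval_C]
    exact ⟨by simp, isIntegral_algebraMap⟩
  | add p q hp hq => rw [map_add]; exact hp.add hq
  | mul_X p k hp => rw [map_mul, MvPolynomial.aeval_X]; exact hp.mul (h _ _ _)

theorem bridge {π ι K : Type} [Group π] (s : ι → π) (c : K → π) (h : Vale.Agent.P002.PD c)
    (r M : ℕ) (hr : 0 < r) (hM : 0 < M) :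
    ∃ L : IntermediateField ℚ ℂ, FiniteDimensional ℚ L ∧
      ∀ C : K → SpecialLinearGroup (Fin r) ℂ, (∀ k, QuasiUnipotent M (C k)) →
        DenseIn s (InY c C) L := by
  obtain ⟨L, hfd, hL⟩ := Vale.Agent.P002.dense_bridge (π := π) (c := c) h s r M hr hM
  refine ⟨L, hfd, fun C hC P hinv hv ρ hρ => ?_⟩
  refine hL P hinv ρ hρ.1 ?_ ?_
  · intro k
    exact Vale.Agent.P002.QU.conj ((Vale.Agent.P002.conjM_iff_isConj hr _ _).mpr (hρ.2 k)) (hC k)
  · intro ρ' hss hint hcl
    exact hv ρ' ⟨hss, fun k => (hρ.2 k).trans (hcl k)⟩ (integral_point _ ρ' hint)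

theorem fg_of {N κ : Type} [Group N] [Finite κ] (t : κ → N)
    (ht : Subgroup.closure (Set.range t) = ⊤) : Group.FG N :=
  Group.fg_iff.mpr ⟨Set.range t, ht, Set.finite_range t⟩

theorem pd_marks {N J : Type} [Group N] [Group.FG N] (hN : VirtuallyNilpotent N) (e : J → N)
    (s : ℕ) (X : Fin s → Curve) (S : (i : Fin s) → Set (Fin (X i).n))
    (h : ∀ i, 2 ≤ (X i).g ∨ (X i).n = 0 ∨ ∃ j ∉ S i, (X i).m j = 0) :
    Vale.Agent.P002.PD (marks e X S) := by
  obtain ⟨H, h1, h2⟩ := hN
  exact Vale.Agent.P002.pd_prod (Vale.Agent.P002.pd_vnil H h2 e)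
    (Vale.Agent.P002.pd_all s (fun i => (X i).g) (fun i => (X i).n) (fun i => (X i).m)
      (fun i j => j ∈ S i) (fun i => by
        rcases h i with h | h | ⟨j, hj, hj'⟩
        · exact Or.inl h
        · exact Or.inr (Or.inl h)
        · exact Or.inr (Or.inr ⟨j, hj', hj⟩)))

/-- Let `r ≥ 1`.
(1) Let `N` be a virtually nilpotent group with a finite family of generators `t` (for instance the
fundamental group of a smooth variety `X_0` for which it is virtually nilpotent), and let `e` be any
family of elements of `N` (for instance the meridians of the boundary components). For all `M ≥ 1`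
some number field `L ⊂ ℂ` makes `M_r(𝓞 L) ∩ Y` Zariski dense in `Y`, for every choice of
quasi-unipotent classes at the elements `e j` with eigenvalues of order dividing `M`. Moreover some
number field `L ⊂ ℂ` makes `M_r(𝓞 L)` Zariski dense in `M_r(ℂ)`.
(2) Let `X = X_0 × X_1 × ⋯ × X_s`, where `N = π_1(X_0)` is virtually nilpotent and `X_1, …, X_s` are
arbitrary smooth (not necessarily projective) curves. Some number field `L ⊂ ℂ` makes `M_r(X)(𝓞 L)`
Zariski dense in `M_r(X)(ℂ)`.
(3) If moreover every curve `X_i` is projective or has genus at least two, then for all `M ≥ 1` there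
is a number field `L ⊂ ℂ` such that for every choice of quasi-unipotent classes with eigenvalues of
order dividing `M`, one for each component of the boundary, `M_r(X)(𝓞 L) ∩ Y` is Zariski dense
in `Y`.
(4) More generally, the `X_i` may have orbifold points, and quasi-unipotent classes may be
prescribed at any elements `e j` of `N` and at an arbitrary set `S i` of marked points of `X_i`,
provided that for every `i` the genus of `X_i` is at least two, or `X_i` has no marked point, or
`X_i` has a puncture which does not belong to `S i`. -/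
theorem result :
    (∀ (N κ J : Type) [Group N] [Finite κ] (t : κ → N) (e : J → N),
      Subgroup.closure (Set.range t) = ⊤ → VirtuallyNilpotent N → ∀ r : ℕ, 0 < r →
      (∀ M : ℕ, 0 < M → ∃ L : IntermediateField ℚ ℂ, FiniteDimensional ℚ L ∧
        ∀ C : J → SpecialLinearGroup (Fin r) ℂ, (∀ j, QuasiUnipotent M (C j)) →
          DenseIn t (InY e C) L) ∧
      ∃ L : IntermediateField ℚ ℂ, FiniteDimensional ℚ L ∧
        DenseIn t (Semisimple (π := N) (r := r)) L) ∧
    (∀ (N κ : Type) [Group N] [Finite κ] (t : κ → N), Subgroup.closure (Set.range t) = ⊤ →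
      VirtuallyNilpotent N → ∀ (s : ℕ) (X : Fin s → Curve), (∀ i j, (X i).m j = 0) →
      ∀ r : ℕ, 0 < r → ∃ L : IntermediateField ℚ ℂ, FiniteDimensional ℚ L ∧
        DenseIn (genAll t X) (Semisimple (π := N × ProductGroup X) (r := r)) L) ∧
    (∀ (N κ J : Type) [Group N] [Finite κ] (t : κ → N) (e : J → N),
      Subgroup.closure (Set.range t) = ⊤ → VirtuallyNilpotent N →
      ∀ (s : ℕ) (X : Fin s → Curve), (∀ i j, (X i).m j = 0) →
      (∀ i, 2 ≤ (X i).g ∨ (X i).n = 0) → ∀ r M : ℕ, 0 < r → 0 < M →
      ∃ L : IntermediateField ℚ ℂ, FiniteDimensional ℚ L ∧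
        ∀ C : Marked J X (fun _ => Set.univ) → SpecialLinearGroup (Fin r) ℂ,
          (∀ k, QuasiUnipotent M (C k)) →
            DenseIn (genAll t X) (InY (marks e X fun _ => Set.univ) C) L) ∧
    (∀ (N κ J : Type) [Group N] [Finite κ] (t : κ → N) (e : J → N),
      Subgroup.closure (Set.range t) = ⊤ → VirtuallyNilpotent N →
      ∀ (s : ℕ) (X : Fin s → Curve) (S : (i : Fin s) → Set (Fin (X i).n)),
      (∀ i, 2 ≤ (X i).g ∨ (X i).n = 0 ∨ ∃ j ∉ S i, (X i).m j = 0) →
      ∀ r M : ℕ, 0 < r → 0 < M →
      ∃ L : IntermediateField ℚ ℂ, FiniteDimensional ℚ L ∧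
        ∀ C : Marked J X S → SpecialLinearGroup (Fin r) ℂ, (∀ k, QuasiUnipotent M (C k)) →
          DenseIn (genAll t X) (InY (marks e X S) C) L) := by
  have hempty : ∀ {π ι : Type} [Group π] (s : ι → π) (c : Empty → π) (r : ℕ), 0 < r →
      Vale.Agent.P002.PD c → ∃ L : IntermediateField ℚ ℂ, FiniteDimensional ℚ L ∧
        DenseIn s (Semisimple (π := π) (r := r)) L := by
    intro π ι _ s c r hr hc
    obtain ⟨L, hfd, hL⟩ := bridge s c hc r 1 hr one_pos
    refine ⟨L, hfd, fun P hinv hv ρ hρ => ?_⟩
    exact hL (fun k => k.elim) (fun k => k.elim) P hinv (fun ρ' h2 => hv ρ' h2.1) ρ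
      ⟨hρ, fun k => k.elim⟩
  refine ⟨?_, ?_, ?_, ?_⟩
  · intro N κ J _ _ t e ht hN r hr
    have hfg := fg_of t ht
    obtain ⟨H, h1, h2⟩ := hN
    exact ⟨fun M hM => bridge t e (Vale.Agent.P002.pd_vnil H h2 e) r M hr hM,
      hempty t (fun k => k.elim) r hr (Vale.Agent.P002.pd_vnil H h2 _)⟩
  · intro N κ _ _ t ht hN s X hX r hr
    have hfg := fg_of t ht
    have h1 := pd_marks hN (fun k : Empty => (k.elim : N)) s X (fun _ => ∅) (fun i => by
      rcases Nat.eq_zero_or_pos (X i).n with h | h
      · exact Or.inr (Or.inl h)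
      · exact Or.inr (Or.inr ⟨⟨0, h⟩, Set.notMem_empty _, hX i _⟩))
    obtain ⟨L, hfd, hL⟩ := bridge (genAll t X) _ h1 r 1 hr one_pos
    have hno : (Empty ⊕ (Σ i : Fin s, {j : Fin (X i).n // j ∈ (∅ : Set (Fin (X i).n))})) → False := by
      rintro (k | ⟨i, j, hj⟩)
      · exact k.elim
      · exact hj
    refine ⟨L, hfd, fun P hinv hv ρ hρ => ?_⟩
    exact hL (fun _ => 1) (fun k => (hno k).elim) P hinv
      (fun ρ' h2 => hv ρ' h2.1) ρ ⟨hρ, fun k => (hno k).elim⟩
  · intro N κ J _ _ t e ht hN s X _ h r M hr hM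
    have hfg := fg_of t ht
    exact bridge (genAll t X) _ (pd_marks hN e s X _ (fun i => by
      rcases h i with h | h
      · exact Or.inl h
      · exact Or.inr (Or.inl h))) r M hr hM
  · intro N κ J _ _ t e ht hN s X S h r M hr hM
    have hfg := fg_of t ht
    exact bridge (genAll t X) _ (pd_marks hN e s X S h) r M hr hM

end Vale.Agent.Results.P002.NilpotentProducts
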