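import Vale.Agent.P002.PAll2

/-!
Potential density, over a single number field, of the integral points on the `SL_r` character
varieties of all finite products of smooth curves, for every rank `r`, with or without prescribed
quasi-unipotent local monodromy.
-/

namespace Vale.Agent.Results.P002.ProductsOfCurves

open Matrix NumberField

section definitions
variable {π ι : Type} [Group π]

/-- A representation of the group `π` in `SL_r(A)`, that is, an `A`-point of `Rep_r`. -/
abbrev Rep (π : Type) [Group π] (r : ℕ) (A : Type) [CommRing A] : Type :=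
  π →* SpecialLinearGroup (Fin r) A

/-- The coordinates of a representation in `Rep_r ⊂ SL_r^ι` with respect to the family of
generators `s`: the matrix entries of the images of the generators. -/
def coords (s : ι → π) {r : ℕ} {A : Type} [CommRing A] (ρ : Rep π r A) :
    ι × Fin r × Fin r → A :=
  fun k => (ρ (s k.1)).1 k.2.1 k.2.2

/-- Simultaneous conjugation of a representation. -/
def conj {r : ℕ} {A : Type} [CommRing A] (h : SpecialLinearGroup (Fin r) A) (ρ : Rep π r A) :
    Rep π r A := (MulAut.conj h).toMonoidHom.comp ρ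

/-- Semisimplicity: every invariant subspace has an invariant complement. -/
def Semisimple {r : ℕ} (ρ : Rep π r ℂ) : Prop :=
  ∀ V : Submodule ℂ (Fin r → ℂ), (∀ γ, ∀ v ∈ V, (ρ γ).1.mulVec v ∈ V) →
    ∃ W : Submodule ℂ (Fin r → ℂ), (∀ γ, ∀ v ∈ W, (ρ γ).1.mulVec v ∈ W) ∧ IsCompl V W

/-- The integral polynomial `Q` in the matrix entries of the generators defines an `SL_r`-invariant
element of `O(Rep_r)`, that is, a regular function on the scheme `M_r` over `ℤ`. -/
def Invariant (s : ι → π) (r : ℕ) (Q : MvPolynomial (ι × Fin r × Fin r) ℤ) : Prop :=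
  ∀ (A : Type) [CommRing A] (h : SpecialLinearGroup (Fin r) A) (ρ : Rep π r A),
    MvPolynomial.aeval (coords s (conj h ρ)) Q = MvPolynomial.aeval (coords s ρ) Q

/-- The complex point of `M_r` given by `ρ` is an `𝓞 L`-integral point. -/
def IntegralPoint (s : ι → π) {r : ℕ} (L : IntermediateField ℚ ℂ) (ρ : Rep π r ℂ) : Prop :=
  ∀ Q, Invariant s r Q → ∃ z : 𝓞 L, algebraMap L ℂ z = MvPolynomial.aeval (coords s ρ) Q

/-- `M_r(𝓞 L) ∩ Y` is Zariski dense in `Y`, where `Y` is the set of points of `M_r(ℂ)` given by the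
representations satisfying `InY`: every regular function on `M_r` over `ℂ` (a conjugation-invariant
polynomial function of representations) which vanishes at the points of `M_r(𝓞 L) ∩ Y` vanishes
on `Y`. -/
def DenseIn (s : ι → π) {r : ℕ} (InY : Rep π r ℂ → Prop) (L : IntermediateField ℚ ℂ) : Prop :=
  ∀ P : MvPolynomial (ι × Fin r × Fin r) ℂ,
    (∀ (h : SpecialLinearGroup (Fin r) ℂ) (ρ : Rep π r ℂ),
      MvPolynomial.eval (coords s (conj h ρ)) P = MvPolynomial.eval (coords s ρ) P) →
    (∀ ρ : Rep π r ℂ, InY ρ → IntegralPoint s L ρ → MvPolynomial.eval (coords s ρ) P = 0) →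
    ∀ ρ : Rep π r ℂ, InY ρ → MvPolynomial.eval (coords s ρ) P = 0

end definitions

/-- A smooth projective curve of genus `g` with `n` marked points. The `j`-th marked point is
removed (it is a puncture) if `m j = 0`, and it is an orbifold point of order `m j` if `m j ≥ 1`
(an ordinary point if `m j = 1`). -/
structure Curve where
  /-- the genus -/
  g : ℕ
  /-- the number of marked points -/
  n : ℕ
  /-- the orders of the marked points -/
  m : Fin n → ℕ

/-- The relator `[a_1,b_1]⋯[a_g,b_g] γ_1⋯γ_n`; the generator `inl (i, false)` is `a_i`,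
`inl (i, true)` is `b_i`, and `inr j` is the loop `γ_j` around the `j`-th marked point. -/
def relator (g n : ℕ) : FreeGroup ((Fin g × Bool) ⊕ Fin n) :=
  (List.ofFn fun i : Fin g => FreeGroup.of (Sum.inl (i, false)) * FreeGroup.of (Sum.inl (i, true)) *
    (FreeGroup.of (Sum.inl (i, false)))⁻¹ * (FreeGroup.of (Sum.inl (i, true)))⁻¹).prod *
  (List.ofFn fun j : Fin n => FreeGroup.of (Sum.inr j)).prod

/-- The (orbifold) fundamental group of a curve, `⟨a_i, b_i, γ_j | ∏ [a_i, b_i] ∏ γ_j, γ_j ^ m_j⟩`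
(the relation `γ_j ^ m_j = 1` is void if the `j`-th marked point is a puncture). -/
abbrev CurveGroup (X : Curve) : Type :=
  PresentedGroup ({relator X.g X.n} ∪ Set.range fun j : Fin X.n =>
    (FreeGroup.of (Sum.inr j) : FreeGroup ((Fin X.g × Bool) ⊕ Fin X.n)) ^ X.m j)

/-- The fundamental group of the product `X_1 × ⋯ × X_s`. -/
abbrev ProductGroup {s : ℕ} (X : Fin s → Curve) : Type := (i : Fin s) → CurveGroup (X i)

/-- The generators of the fundamental group of the product: the generators of the factors. -/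
def gen {s : ℕ} (X : Fin s → Curve) :
    (Σ i : Fin s, (Fin (X i).g × Bool) ⊕ Fin (X i).n) → ProductGroup X :=
  fun k => Pi.mulSingle k.1 (PresentedGroup.of k.2)

/-- The loop around the `j`-th marked point of the `i`-th factor; if this point is a puncture, this
is the meridian of the corresponding boundary divisor of the product. -/
def meridian {s : ℕ} (X : Fin s → Curve) (i : Fin s) (j : Fin (X i).n) : ProductGroup X :=
  gen X ⟨i, Sum.inr j⟩

/-- The conjugacy class of `C` is quasi-unipotent: the eigenvalues of `C` are roots of unity, of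
order dividing `M`. -/
def QuasiUnipotent (M : ℕ) {r : ℕ} (C : SpecialLinearGroup (Fin r) ℂ) : Prop :=
  ∀ μ : ℂ, C.1.charpoly.IsRoot μ → μ ^ M = 1

/-- `ρ` represents a point of `Y`: it is semisimple, and the local monodromy at the `j`-th marked
point of the `i`-th factor is in the conjugacy class of `C i j`, for all `j` in `S i`. -/
def InY {s : ℕ} (X : Fin s → Curve) (S : (i : Fin s) → Set (Fin (X i).n)) {r : ℕ}
    (C : (i : Fin s) → Fin (X i).n → SpecialLinearGroup (Fin r) ℂ)
    (ρ : Rep (ProductGroup X) r ℂ) : Prop :=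
  Semisimple ρ ∧ ∀ i, ∀ j ∈ S i, IsConj (C i j) (ρ (meridian X i j))

theorem lift_int {L : IntermediateField ℚ ℂ} {x : ℂ} (hx : Vale.Agent.P002.OInt L x) :
    ∃ z : 𝓞 L, algebraMap L ℂ z = x := by
  obtain ⟨hx, hxi⟩ := hx
  have h1 : IsIntegral ℤ (⟨x, hx⟩ : L) :=
    (isIntegral_algHom_iff (L.val.restrictScalars ℤ) (RingHom.injective _)).mp hxi
  exact ⟨⟨⟨x, hx⟩, h1⟩, rfl⟩

theorem integral_point {π ι : Type} [Group π] (s : ι → π) {r : ℕ} {L : IntermediateField ℚ ℂ}
    (ρ : Rep π r ℂ) (h : ∀ γ i j, Vale.Agent.P002.OInt L ((ρ γ).1 i j)) : IntegralPoint s L ρ := by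
  intro Q hQ
  refine lift_int ?_
  clear hQ
  induction Q using MvPolynomial.induction_on with
  | C a =>
    rw [MvPolynomial.aeval_C]
    exact ⟨by simp, isIntegral_algebraMap⟩
  | add p q hp hq => rw [map_add]; exact hp.add hq
  | mul_X p k hp => rw [map_mul, MvPolynomial.aeval_X]; exact hp.mul (h _ _ _)

theorem general (s : ℕ) (X : Fin s → Curve) (S : (i : Fin s) → Set (Fin (X i).n))
    (h : ∀ i, 2 ≤ (X i).g ∨ (X i).n = 0 ∨ ∃ j ∉ S i, (X i).m j = 0) (r M : ℕ) (hr : 0 < r)
    (hM : 0 < M) :
    ∃ L : IntermediateField ℚ ℂ, FiniteDimensional ℚ L ∧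
      ∀ C : (i : Fin s) → Fin (X i).n → SpecialLinearGroup (Fin r) ℂ,
        (∀ i, ∀ j ∈ S i, QuasiUnipotent M (C i j)) → DenseIn (gen X) (InY X S C) L := by
  have h1 := Vale.Agent.P002.pd_all s (fun i => (X i).g) (fun i => (X i).n) (fun i => (X i).m)
    (fun i j => j ∈ S i) (fun i => by
      rcases h i with h | h | ⟨j, hj, hj'⟩
      · exact Or.inl h
      · exact Or.inr (Or.inl h)
      · exact Or.inr (Or.inr ⟨j, hj', hj⟩))
  obtain ⟨L, hfd, hL⟩ := Vale.Agent.P002.dense_bridge (π := ProductGroup X)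
    (c := fun q : Σ i, {j : Fin (X i).n // j ∈ S i} => meridian X q.1 q.2.1) h1 (gen X) r M hr hM
  refine ⟨L, hfd, fun C hC P hinv hv ρ hρ => ?_⟩
  refine hL P hinv ρ hρ.1 ?_ ?_
  · rintro ⟨i, j, hj⟩
    have h2 := hρ.2 i j hj
    have h3 := Vale.Agent.P002.QU.conj ((Vale.Agent.P002.conjM_iff_isConj hr _ _).mpr h2)
      (hC i j hj)
    exact h3
  · intro ρ' hss hint hcl
    refine hv ρ' ⟨hss, fun i j hj => ?_⟩ (integral_point _ ρ' hint)
    exact (hρ.2 i j hj).trans (hcl ⟨i, j, hj⟩)

/-- Let `X = X_1 × ⋯ × X_s` be a product of smooth curves and `r ≥ 1`.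
(1) For arbitrary smooth (not necessarily projective) curves `X_i` of arbitrary genus, some number
field `L ⊂ ℂ` makes `M_r(X)(𝓞 L)` Zariski dense in `M_r(X)(ℂ)`.
(2) If every `X_i` is projective or has genus at least two, then for all `M ≥ 1` there is a number
field `L ⊂ ℂ` such that for every choice of quasi-unipotent classes with eigenvalues of order
dividing `M`, one for each component of the boundary, `M_r(X)(𝓞 L) ∩ Y` is Zariski dense in `Y`.
(3) More generally, the `X_i` may have orbifold points, and quasi-unipotent classes may be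
prescribed at an arbitrary set `S i` of marked points of `X_i`, provided that for every `i` the
genus of `X_i` is at least two, or `X_i` has no marked point, or `X_i` has a puncture which does
not belong to `S i`. -/
theorem result :
    (∀ (s : ℕ) (X : Fin s → Curve), (∀ i j, (X i).m j = 0) → ∀ r : ℕ, 0 < r →
      ∃ L : IntermediateField ℚ ℂ, FiniteDimensional ℚ L ∧
        DenseIn (gen X) (Semisimple (π := ProductGroup X) (r := r)) L) ∧
    (∀ (s : ℕ) (X : Fin s → Curve), (∀ i j, (X i).m j = 0) →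
      (∀ i, 2 ≤ (X i).g ∨ (X i).n = 0) → ∀ r M : ℕ, 0 < r → 0 < M →
      ∃ L : IntermediateField ℚ ℂ, FiniteDimensional ℚ L ∧
        ∀ C : (i : Fin s) → Fin (X i).n → SpecialLinearGroup (Fin r) ℂ,
          (∀ i j, QuasiUnipotent M (C i j)) →
            DenseIn (gen X) (InY X (fun _ => Set.univ) C) L) ∧
    (∀ (s : ℕ) (X : Fin s → Curve) (S : (i : Fin s) → Set (Fin (X i).n)),
      (∀ i, 2 ≤ (X i).g ∨ (X i).n = 0 ∨ ∃ j ∉ S i, (X i).m j = 0) →
      ∀ r M : ℕ, 0 < r → 0 < M →
      ∃ L : IntermediateField ℚ ℂ, FiniteDimensional ℚ L ∧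
        ∀ C : (i : Fin s) → Fin (X i).n → SpecialLinearGroup (Fin r) ℂ,
          (∀ i, ∀ j ∈ S i, QuasiUnipotent M (C i j)) → DenseIn (gen X) (InY X S C) L) := by
  refine ⟨?_, ?_, fun s X S h r M hr hM => general s X S h r M hr hM⟩
  · intro s X hX r hr
    obtain ⟨L, hfd, hL⟩ := general s X (fun _ => ∅) (fun i => by
      rcases Nat.eq_zero_or_pos (X i).n with h | h
      · exact Or.inr (Or.inl h)
      · exact Or.inr (Or.inr ⟨⟨0, h⟩, Set.notMem_empty _, hX i _⟩)) r 1 hr one_pos
    have h1 : ∀ ρ : Rep (ProductGroup X) r ℂ, InY X (fun _ => ∅) (fun _ _ => 1) ρ ↔ Semisimple ρ :=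
      fun ρ => ⟨fun h => h.1, fun h => ⟨h, fun i j hj => absurd hj (Set.notMem_empty _)⟩⟩
    refine ⟨L, hfd, fun P hinv hv ρ hρ => ?_⟩
    exact hL (fun _ _ => 1) (fun i j hj => absurd hj (Set.notMem_empty _)) P hinv
      (fun ρ' h2 => hv ρ' ((h1 ρ').mp h2)) ρ ((h1 ρ).mpr hρ)
  · intro s X _ h r M hr hM
    obtain ⟨L, hfd, hL⟩ := general s X (fun _ => Set.univ) (fun i => by
      rcases h i with h | h
      · exact Or.inl h
      · exact Or.inr (Or.inl h)) r M hr hM
    exact ⟨L, hfd, fun C hC => hL C fun i j _ => hC i j⟩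

end Vale.Agent.Results.P002.ProductsOfCurves
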